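import Vale.Agent.Lib.P310.WL

/-!
# The game characterisation of `k`-WL equivalence
-/

namespace Vale.Agent.Lib.P310

variable {k : ℕ} {V W : Type} [Fintype V] [Fintype W] {G : SimpleGraph V} {H : SimpleGraph W}

/-- Two multisets of values of functions on fintypes agree iff the functions agree up to a bijection. -/
lemma exists_equiv_of_map_eq {A : Type} (g₁ : V → A) (g₂ : W → A)
    (h : (Finset.univ : Finset V).val.map g₁ = (Finset.univ : Finset W).val.map g₂) :
    ∃ f : V ≃ W, ∀ v, g₁ v = g₂ (f v) := by
  classical
  have hfib : ∀ a : A, Fintype.card {v // g₁ v = a} = Fintype.card {w // g₂ w = a} := by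
    intro a
    have h2 := congrArg (Multiset.count a) h
    rw [Multiset.count_map, Multiset.count_map] at h2
    rw [Fintype.card_subtype, Fintype.card_subtype]
    simpa [Finset.card, Finset.filter, eq_comm] using h2
  have e : ∀ a : A, {v // g₁ v = a} ≃ {w // g₂ w = a} := fun a =>
    Fintype.equivOfCardEq (hfib a)
  refine ⟨(Equiv.sigmaFiberEquiv g₁).symm.trans
    ((Equiv.sigmaCongrRight e).trans (Equiv.sigmaFiberEquiv g₂)), ?_⟩
  intro v
  simpa [Equiv.sigmaFiberEquiv] using ((e (g₁ v)) ⟨v, rfl⟩).2.symm

/-- The relation of having equal colors in all rounds. -/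
def SameColor (G : SimpleGraph V) (H : SimpleGraph W) (x : Fin k → V) (y : Fin k → W) : Prop :=
  ∀ r, wlColor G r x = wlColor H r y

lemma wlColor_succ_fst (r : ℕ) (x : Fin k → V) :
    (wlColor G (r + 1) x).1 = wlColor G r x := rfl

lemma sameColor_of_infinite {x : Fin k → V} {y : Fin k → W} {s : Set ℕ} (hs : s.Infinite)
    (h : ∀ r ∈ s, wlColor G r x = wlColor H r y) : SameColor G H x y := by
  have down : ∀ r, wlColor G (r + 1) x = wlColor H (r + 1) y → wlColor G r x = wlColor H r y := by
    intro r h
    exact congrArg Prod.fst h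
  have down2 : ∀ r d, wlColor G (r + d) x = wlColor H (r + d) y → wlColor G r x = wlColor H r y := by
    intro r d
    induction d with
    | zero => exact id
    | succ d ih => intro h; exact ih (down _ h)
  intro r
  obtain ⟨r', hr', hle⟩ := hs.exists_gt r
  obtain ⟨d, rfl⟩ := Nat.exists_eq_add_of_le hle.le
  exact down2 r d (h _ hr')

lemma SameColor.exists_equiv [DecidableEq V] [DecidableEq W] {x : Fin k → V} {y : Fin k → W}
    (h : SameColor G H x y) :
    ∃ f : V ≃ W, ∀ v i, SameColor G H (Function.update x i v) (Function.update y i (f v)) := by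
  classical
  have h1 : ∀ r, ∃ f : V ≃ W, ∀ v i,
      wlColor G r (Function.update x i v) = wlColor H r (Function.update y i (f v)) := by
    intro r
    have h2 := congrArg Prod.snd (h (r + 1))
    obtain ⟨f, hf⟩ := exists_equiv_of_map_eq _ _ h2
    exact ⟨f, fun v i => congrFun (hf v) i⟩
  choose f hf using h1
  obtain ⟨f₀, hf₀⟩ := Finite.exists_infinite_fiber f
  have hinf : (f ⁻¹' {f₀}).Infinite := Set.infinite_coe_iff.mp hf₀
  refine ⟨f₀, fun v i => sameColor_of_infinite hinf ?_⟩
  intro r hr
  have hr' : f r = f₀ := hr
  rw [← hr']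
  exact hf r v i

lemma exists_sameColor_of_wlEquiv (h : WLEquiv k G H) (x : Fin k → V) :
    ∃ y, SameColor G H x y := by
  classical
  have h1 : ∀ r, ∃ y : Fin k → W, wlColor G r x = wlColor H r y := by
    intro r
    have hmem : wlColor G r x ∈ (Finset.univ : Finset (Fin k → V)).val.map (wlColor G r) :=
      Multiset.mem_map.mpr ⟨x, by simp, rfl⟩
    rw [h r] at hmem
    obtain ⟨y, -, hy⟩ := Multiset.mem_map.mp hmem
    exact ⟨y, hy.symm⟩
  choose y hy using h1
  obtain ⟨y₀, hy₀⟩ := Finite.exists_infinite_fiber y
  have hinf : (y ⁻¹' {y₀}).Infinite := Set.infinite_coe_iff.mp hy₀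
  refine ⟨y₀, sameColor_of_infinite hinf ?_⟩
  intro r hr
  have hr' : y r = y₀ := hr
  rw [← hr']
  exact hy r

lemma SameColor.atomicType_eq {x : Fin k → V} {y : Fin k → W} (h : SameColor G H x y) :
    atomicType G x = atomicType H y := h 0

lemma SameColor.adj_iff {x : Fin k → V} {y : Fin k → W} (h : SameColor G H x y) (i j : Fin k) :
    G.Adj (x i) (x j) ↔ H.Adj (y i) (y j) := by
  have h2 := congrArg Prod.snd (congrFun (congrFun h.atomicType_eq i) j)
  simpa [atomicType] using h2

lemma SameColor.eq_iff {x : Fin k → V} {y : Fin k → W} (h : SameColor G H x y) (i j : Fin k) :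
    x i = x j ↔ y i = y j := by
  have h2 := congrArg Prod.fst (congrFun (congrFun h.atomicType_eq i) j)
  simpa [atomicType] using h2

/-- The answer `f v` to a vertex `v` stands in the same adjacency relation to all old entries. -/
lemma SameColor.adj_answer [DecidableEq V] [DecidableEq W] (hk : 2 ≤ k) {x : Fin k → V}
    {y : Fin k → W} {f : V ≃ W}
    (hf : ∀ v i, SameColor G H (Function.update x i v) (Function.update y i (f v)))
    (v : V) (j : Fin k) : G.Adj (x j) v ↔ H.Adj (y j) (f v) := by
  classical
  obtain ⟨i, hi⟩ : ∃ i : Fin k, i ≠ j := by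
    by_contra hne
    push Not at hne
    have j' : Fin k := j
    have h0 : (⟨0, by omega⟩ : Fin k) = j := hne _
    have h1 : (⟨1, by omega⟩ : Fin k) = j := hne _
    have := h0.trans h1.symm
    simp at this
  have := (hf v i).adj_iff j i
  simpa [Function.update_of_ne hi.symm, Function.update_self] using this

/-- Entries at the same position have the same degree. -/
lemma SameColor.degree_eq [DecidableEq V] [DecidableEq W] (hk : 2 ≤ k) {x : Fin k → V}
    {y : Fin k → W} (h : SameColor G H x y) (j : Fin k)
    [DecidableRel G.Adj] [DecidableRel H.Adj] :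
    G.degree (x j) = H.degree (y j) := by
  classical
  obtain ⟨f, hf⟩ := h.exists_equiv
  have h1 := SameColor.adj_answer hk hf
  rw [← SimpleGraph.card_neighborFinset_eq_degree, ← SimpleGraph.card_neighborFinset_eq_degree]
  refine Finset.card_bij (fun v _ => f v) ?_ ?_ ?_
  · intro v hv
    simpa using (h1 v j).mp (by simpa using hv)
  · intro a _ b _ hab
    exact f.injective hab
  · intro w hw
    refine ⟨f.symm w, ?_, by simp⟩
    have := (h1 (f.symm w) j).mpr (by simpa using hw)
    simpa using this

/-- A relation that respects atomic types, can always answer with a bijection and contains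
a bijection of tuples witnesses `k`-WL equivalence. -/
theorem wlEquiv_of_game [DecidableEq V] [DecidableEq W]
    (R : (Fin k → V) → (Fin k → W) → Prop)
    (hatp : ∀ x y, R x y → atomicType G x = atomicType H y)
    (hext : ∀ x y, R x y → ∃ f : V ≃ W, ∀ v i, R (Function.update x i v) (Function.update y i (f v)))
    (F : (Fin k → V) ≃ (Fin k → W)) (hF : ∀ x, R x (F x)) : WLEquiv k G H := by
  have key : ∀ r x y, R x y → wlColor G r x = wlColor H r y := by
    intro r
    induction r with
    | zero => intro x y hxy; exact hatp x y hxy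
    | succ r ih =>
      intro x y hxy
      obtain ⟨f, hf⟩ := hext x y hxy
      show (wlColor G r x, _) = (wlColor H r y, _)
      rw [ih x y hxy]
      congr 1
      have : (fun v => fun i => wlColor G r (Function.update x i v)) =
          (fun w => fun i => wlColor H r (Function.update y i w)) ∘ f := by
        funext v i
        exact ih _ _ (hf v i)
      rw [this, ← Multiset.map_map, Multiset.map_univ_val_equiv]
  intro r
  have : wlColor G r = wlColor H r ∘ F := by
    funext x
    exact key r x (F x) (hF x)
  rw [this, ← Multiset.map_map, Multiset.map_univ_val_equiv]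

end Vale.Agent.Lib.P310
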