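import Mathlib

/-!
# The chain graphs

An element `(c, p, a, β)` is a local assignment at position `p` of chain `c`: the cut variable on
the left of the position has value `a` and the bit variable of position `p` has value `β`.
The value of the cut variable on the right is `a + v c p * β`, plus the twist `b c` at position `0`.
-/

namespace Vale.Agent.Lib.P310

/-- Local assignments: chain, position, value of the left cut variable, value of the bit variable. -/
abbrev Elem (m L : ℕ) : Type := Fin m × Fin L × ZMod 2 × ZMod 2

variable {m L : ℕ}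

/-- The value of the right cut variable forced by a local assignment. -/
def rightVal (v : Fin m → Fin L → ZMod 2) (b : Fin m → ZMod 2) (e : Elem m L) : ZMod 2 :=
  e.2.2.1 + v e.1 e.2.1 * e.2.2.2 + (if e.2.1.val = 0 then b e.1 else 0)

/-- Adjacency of local assignments: consecutive positions of one chain must agree on their common
cut variable, equal positions of different chains must agree on their common bit variable; no other
pairs are adjacent. -/
def ElemAdj (v : Fin m → Fin L → ZMod 2) (b : Fin m → ZMod 2) (e e' : Elem m L) : Prop :=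
  (e.1 = e'.1 ∧ e.2.1.val + 1 = e'.2.1.val ∧ e'.2.2.1 = rightVal v b e) ∨
  (e.1 = e'.1 ∧ e'.2.1.val + 1 = e.2.1.val ∧ e.2.2.1 = rightVal v b e') ∨
  (e.1 ≠ e'.1 ∧ e.2.1 = e'.2.1 ∧ e.2.2.2 = e'.2.2.2)

/-- A local assignment violates a boundary condition if its left cut value at the first position,
or its right cut value at the last position, is nonzero. -/
def boundaryFlag (v : Fin m → Fin L → ZMod 2) (e : Elem m L) : ℕ :=
  if (e.2.1.val = 0 ∧ e.2.2.1 ≠ 0) ∨
      (e.2.1.val + 1 = L ∧ e.2.2.1 + v e.1 e.2.1 * e.2.2.2 ≠ 0) then 1 else 0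

/-- A number coding chain, position and flag of an element. -/
def elemCode (v : Fin m → Fin L → ZMod 2) (e : Elem m L) : ℕ :=
  2 * (L * e.1.val + e.2.1.val) + boundaryFlag v e

/-- The number of pendant leaves of an element. -/
def leafCount (v : Fin m → Fin L → ZMod 2) (e : Elem m L) : ℕ :=
  (elemCode v e + 1) * (4 * m * L + 1)

/-- Vertices: an element (with second component `none`), or a possible leaf at an element. -/
abbrev Vtx (m L : ℕ) : Type := Elem m L × Option (Fin (2 * m * L * (4 * m * L + 1)))

/-- The graph of a chain system `v` with twists `b`. -/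
def chainGraph (v : Fin m → Fin L → ZMod 2) (b : Fin m → ZMod 2) :
    SimpleGraph (Vtx m L) where
  Adj x y :=
    match x.2, y.2 with
    | none, none => ElemAdj v b x.1 y.1
    | none, some i => x.1 = y.1 ∧ i.val < leafCount v x.1
    | some i, none => x.1 = y.1 ∧ i.val < leafCount v y.1
    | some _, some _ => False
  symm := ⟨by
    rintro ⟨e, (_ | i)⟩ ⟨e', (_ | j)⟩ h
    · rcases h with h | h | h
      · exact Or.inr (Or.inl ⟨h.1.symm, h.2.1, h.2.2⟩)
      · exact Or.inl ⟨h.1.symm, h.2.1, h.2.2⟩
      · exact Or.inr (Or.inr ⟨fun h' => h.1 h'.symm, h.2.1.symm, h.2.2.symm⟩)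
    · exact ⟨h.1.symm, h.1 ▸ h.2⟩
    · exact ⟨h.1.symm, h.1 ▸ h.2⟩
    · exact h⟩
  loopless := ⟨by
    rintro ⟨e, (_ | i)⟩ h
    · rcases h with h | h | h
      · omega
      · omega
      · exact h.1 rfl
    · exact h⟩

/-- The chain system in which every base vector is repeated `2 * k` times: position `p` carries the
entry of the base vector at coordinate `p` modulo `d`. -/
def repChain {m d : ℕ} (k : ℕ) (hd : 0 < d) (u : Fin m → Fin d → ZMod 2) :
    Fin m → Fin (2 * k * d) → ZMod 2 :=
  fun c p => u c ⟨p.val % d, Nat.mod_lt _ hd⟩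

/-- The base vectors of a syndrome instance: the target `s` is added as an extra chain number `0`. -/
def sdBase {m d : ℕ} (u : Fin m → Fin d → ZMod 2) (s : Fin d → ZMod 2) :
    Fin (m + 1) → Fin d → ZMod 2 :=
  Fin.cons s u

/-- The twists of a syndrome instance: only the extra chain number `0` is twisted. -/
def sdTwist (m : ℕ) : Fin (m + 1) → ZMod 2 := Fin.cons 1 0

end Vale.Agent.Lib.P310
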