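import Vale.Agent.Lib.P310.Duplicator

/-!
# The correction lemma: a violated chain can be repaired far away from the pebbles
-/

namespace Vale.Agent.Lib.P310

variable {k m d : ℕ}

/-- Aggregation over the chains: a combination of vectors indexed through a chain map equals the
sum over a set of chains of size at most the number of indices. -/
lemma exists_chain_set {J : Type} [Fintype J] (chain : J → Fin m) (g : J → ZMod 2) :
    ∃ T : Finset (Fin m), T.card ≤ Fintype.card J ∧ (∀ c ∈ T, ∃ j, chain j = c) ∧
      ∀ (A : Type) [AddCommGroup A] [Module (ZMod 2) A] (h : Fin m → A),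
        ∑ j, g j • h (chain j) = ∑ c ∈ T, h c := by
  classical
  let coef : Fin m → ZMod 2 := fun c => ∑ j with chain j = c, g j
  refine ⟨(Finset.univ.image chain).filter (fun c => coef c = 1), ?_, ?_, ?_⟩
  · refine (Finset.card_filter_le _ _).trans (Finset.card_image_le.trans ?_)
    simp
  · intro c hc
    obtain ⟨j, -, hj⟩ := Finset.mem_image.mp (Finset.mem_filter.mp hc).1
    exact ⟨j, hj⟩
  · intro A _ _ h
    have h1 : ∑ j, g j • h (chain j) = ∑ c ∈ Finset.univ.image chain, coef c • h c := by
      rw [← Finset.sum_fiberwise_of_maps_to (s := Finset.univ) (t := Finset.univ.image chain)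
        (g := chain) (fun j _ => Finset.mem_image_of_mem _ (Finset.mem_univ j))]
      refine Finset.sum_congr rfl fun c _ => ?_
      simp only [coef]
      rw [Finset.sum_smul]
      refine Finset.sum_congr rfl fun j hj => ?_
      rw [(Finset.mem_filter.mp hj).2]
    rw [h1, Finset.sum_filter]
    refine Finset.sum_congr rfl fun c _ => ?_
    have h2 : coef c = 0 ∨ coef c = 1 := by
      generalize coef c = a
      revert a
      decide
    rcases h2 with h2 | h2
    · simp [h2]
    · simp [h2]

/-- No set of at most `k` chains has base vectors adding to zero and twists adding to one. -/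
def NoOddDep (k : ℕ) (u : Fin m → Fin d → ZMod 2) (b : Fin m → ZMod 2) : Prop :=
  ∀ S : Finset (Fin m), S.card ≤ k → ∑ c ∈ S, u c = 0 → ∑ c ∈ S, b c = 0

lemma sat_of_sum_eq {hd : 0 < d} {u : Fin m → Fin d → ZMod 2} {b : Fin m → ZMod 2}
    (hodd : NoOddDep k u b) {Y : Fin (2 * k * d) → ZMod 2} {T : Finset (Fin m)} {c' : Fin m}
    (hT : T.card + 1 ≤ k) (hu : u c' = ∑ c ∈ T, u c)
    (hsat : ∀ c ∈ T, Sat (repChain k hd u) b Y c) : Sat (repChain k hd u) b Y c' := by
  classical
  by_cases hc' : c' ∈ T
  · exact hsat c' hc'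
  have h1 := hodd (insert c' T) ((Finset.card_insert_le _ _).trans hT) (by
    rw [Finset.sum_insert hc', ← hu]
    funext r
    exact zmod2_add_self _)
  rw [Finset.sum_insert hc'] at h1
  have h2 : ∀ s t : ZMod 2, s + t = 0 → s = t := by decide
  have h3 := h2 _ _ h1
  unfold Sat
  rw [h3, ← Finset.sum_congr rfl hsat]
  rw [Finset.sum_comm]
  refine Finset.sum_congr rfl fun l _ => ?_
  rw [← Finset.sum_mul]
  congr 1
  simp only [repChain]
  rw [hu]
  simp

/-- A point of a block. -/
lemma exists_block_point (hd : 0 < d) {q : ℕ} (hq : q < 2 * k) (r : Fin d) :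
    ∃ l : Fin (2 * k * d), l.val = q * d + r.val ∧ l.val % d = r.val ∧ l.val / d = q := by
  have h1 : q * d + r.val < 2 * k * d := by
    have h2 : (q + 1) * d ≤ 2 * k * d := Nat.mul_le_mul_right _ hq
    have h3 : (q + 1) * d = q * d + d := by ring
    have h4 := r.isLt
    omega
  refine ⟨⟨q * d + r.val, h1⟩, rfl, ?_, ?_⟩
  · simp only
    rw [Nat.mul_comm, Nat.mul_add_mod, Nat.mod_eq_of_lt r.isLt]
  · simp only
    rw [Nat.mul_comm, Nat.mul_add_div hd, Nat.div_eq_of_lt r.isLt, Nat.add_zero]

/-- The core of the correction: the alternative of Fredholm on a clean block. -/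
lemma exists_delta_of_clean {hd : 0 < d} {u : Fin m → Fin d → ZMod 2} {b : Fin m → ZMod 2}
    (hodd : NoOddDep k u b) {J : Type} [Fintype J] (hJ : Fintype.card J + 1 ≤ k)
    {Y : Fin (2 * k * d) → ZMod 2} (chain : J → Fin m) (pos : J → Fin (2 * k * d))
    (hsat : ∀ j, Sat (repChain k hd u) b Y (chain j)) {c' : Fin m}
    (hc' : ¬ Sat (repChain k hd u) b Y c') (p' : Fin (2 * k * d))
    (w₁ w₂ : Fin (2 * k * d) → ZMod 2) {q : ℕ} (hq : q < 2 * k) (hclean : ∀ j, (pos j).val / d ≠ q)
    (hw : ∀ l : Fin (2 * k * d), l.val / d = q →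
      w₁ l = repChain k hd u c' l ∧ w₂ l = 0 ∧ l ≠ p') :
    ∃ δ : Fin (2 * k * d) → ZMod 2, (∀ j, δ (pos j) = 0) ∧
      (∀ j, ∑ l, (if l < pos j then repChain k hd u (chain j) l else 0) * δ l = 0) ∧
      (∀ j, ∑ l, repChain k hd u (chain j) l * δ l = 0) ∧ δ p' = 0 ∧
      ∑ l, w₂ l * δ l = 0 ∧ ∑ l, w₁ l * δ l = 1 := by
  classical
  set v := repChain k hd u with hv
  let F : (J ⊕ J ⊕ J ⊕ Bool) → Fin (2 * k * d) → ZMod 2 :=
    Sum.elim (fun j l => if l = pos j then 1 else 0)
      (Sum.elim (fun j l => if l < pos j then v (chain j) l else 0)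
        (Sum.elim (fun j l => v (chain j) l)
          (fun t l => if t then (if l = p' then 1 else 0) else w₂ l)))
  rcases fredholm F w₁ with ⟨γ, hγ⟩ | ⟨δ, hδ, hδ₁⟩
  · exfalso
    apply hc'
    -- the block coefficients
    let n : J → ZMod 2 := fun j => if q < (pos j).val / d then 1 else 0
    let g : J → ZMod 2 := fun j => γ (Sum.inr (Sum.inl j)) * n j + γ (Sum.inr (Sum.inr (Sum.inl j)))
    obtain ⟨T, hTc, hTm, hTs⟩ := exists_chain_set chain g
    refine sat_of_sum_eq (hd := hd) hodd (T := T) (by omega) ?_ ?_
    · rw [← hTs]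
      funext r
      obtain ⟨l, hl1, hl2, hl3⟩ := exists_block_point (k := k) hd hq r
      obtain ⟨hw1, hw2, hw3⟩ := hw l hl3
      have h1 := hγ l
      rw [hw1] at h1
      have hvl : ∀ c, v c l = u c r := by
        intro c
        show u c _ = u c r
        congr 1
        exact Fin.ext hl2
      rw [hvl] at h1
      rw [h1, Fintype.sum_sum_type, Fintype.sum_sum_type, Fintype.sum_sum_type]
      simp only [F, Sum.elim_inl, Sum.elim_inr, Fintype.sum_bool, if_true, if_false, Bool.false_eq_true,
        if_neg hw3, hw2, mul_zero, add_zero]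
      have hne : ∀ j, l ≠ pos j := by
        intro j h
        apply hclean j
        rw [← h, hl3]
      have hlt : ∀ j, (if l < pos j then u (chain j) r else 0) = n j * u (chain j) r := by
        intro j
        have hne' := hclean j
        by_cases hqj : q < (pos j).val / d
        · have h2 : l < pos j := by
            rw [Fin.lt_def]
            by_contra hle
            have h3 := Nat.div_le_div_right (c := d) (not_lt.mp hle)
            omega
          simp [n, hqj, h2]
        · have h2 : ¬ l < pos j := by
            rw [Fin.lt_def]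
            intro hlt'
            have h3 := Nat.div_le_div_right (c := d) hlt'.le
            omega
          simp [n, hqj, h2]
      simp only [hne, if_false, mul_zero, Finset.sum_const_zero, zero_add, hvl, hlt]
      rw [← Finset.sum_add_distrib, Finset.sum_apply]
      refine Finset.sum_congr rfl fun j _ => ?_
      simp only [Pi.smul_apply, smul_eq_mul, g]
      ring
    · intro c hc
      obtain ⟨j, rfl⟩ := hTm c hc
      exact hsat j
  · refine ⟨δ, ?_, ?_, ?_, ?_, ?_, hδ₁⟩
    · intro j
      have := hδ (Sum.inl j)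
      simpa [F] using this
    · intro j
      exact hδ (Sum.inr (Sum.inl j))
    · intro j
      exact hδ (Sum.inr (Sum.inr (Sum.inl j)))
    · have := hδ (Sum.inr (Sum.inr (Sum.inr true)))
      simpa [F] using this
    · exact hδ (Sum.inr (Sum.inr (Sum.inr false)))

/-- The correction: a violated chain can be repaired without touching the pebbles. -/
theorem exists_correction {hd : 0 < d} {u : Fin m → Fin d → ZMod 2} {b : Fin m → ZMod 2}
    (hodd : NoOddDep k u b) {J : Type} [Fintype J] (hJ : Fintype.card J + 1 ≤ k)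
    {Y : Fin (2 * k * d) → ZMod 2} (chain : J → Fin m) (pos : J → Fin (2 * k * d))
    (hsat : ∀ j, Sat (repChain k hd u) b Y (chain j)) {c' : Fin m}
    (hc' : ¬ Sat (repChain k hd u) b Y c') (p' : Fin (2 * k * d)) :
    ∃ δ : Fin (2 * k * d) → ZMod 2, (∀ j, δ (pos j) = 0) ∧
      (∀ j, prefixSum (repChain k hd u (chain j)) δ (pos j) = 0) ∧
      (∀ j, ∑ l, repChain k hd u (chain j) l * δ l = 0) ∧ δ p' = 0 ∧
      prefixSum (repChain k hd u c') δ p' = (if k * d ≤ p'.val then 1 else 0) ∧
      ∑ l, repChain k hd u c' l * δ l = 1 := by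
  classical
  set v := repChain k hd u with hv
  let t : Fin (2 * k * d) → ZMod 2 := fun l => if l < p' then v c' l else 0
  let s : Fin (2 * k * d) → ZMod 2 := fun l => if l < p' then 0 else v c' l
  have hts : ∀ δ : Fin (2 * k * d) → ZMod 2, ∑ l, v c' l * δ l = ∑ l, t l * δ l + ∑ l, s l * δ l := by
    intro δ
    rw [← Finset.sum_add_distrib]
    refine Finset.sum_congr rfl fun l _ => ?_
    by_cases h : l < p' <;> simp [t, s, h]
  have hcard : ((Finset.univ : Finset J).image (fun j => (pos j).val / d)).card ≤ k - 1 := by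
    refine Finset.card_image_le.trans ?_
    simp only [Finset.card_univ]
    omega
  by_cases hright : k * d ≤ p'.val
  · -- the clean block is on the left
    obtain ⟨q, hq, hqn⟩ := Finset.exists_mem_notMem_of_card_lt_card
      (s := (Finset.univ : Finset J).image (fun j => (pos j).val / d))
      (t := Finset.range k) (by simp only [Finset.card_range]; omega)
    have hqk : q < k := Finset.mem_range.mp hq
    have hclean : ∀ j, (pos j).val / d ≠ q := by
      intro j h
      exact hqn (Finset.mem_image.mpr ⟨j, Finset.mem_univ _, h⟩)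
    obtain ⟨δ, h1, h2, h3, h4, h5, h6⟩ := exists_delta_of_clean hodd hJ chain pos hsat hc' p' t s
      (q := q) (by omega) hclean (by
        intro l hl
        have hlt : l.val < p'.val := by
          have h7 : l.val < (q + 1) * d := Nat.lt_mul_of_div_lt (by omega) hd
          have h8 : (q + 1) * d ≤ k * d := Nat.mul_le_mul_right _ hqk
          omega
        have hlt' : l < p' := hlt
        simp [t, s, hlt', hlt'.ne]
        rfl)
    refine ⟨δ, h1, fun j => ?_, h3, h4, ?_, ?_⟩
    · rw [prefixSum_eq_sum]
      exact h2 j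
    · rw [if_pos hright, prefixSum_eq_sum]
      exact h6
    · rw [hts, h5, h6, add_zero]
  · -- the clean block is on the right
    obtain ⟨q, hq, hqn⟩ := Finset.exists_mem_notMem_of_card_lt_card
      (s := (Finset.univ : Finset J).image (fun j => (pos j).val / d))
      (t := Finset.Ico k (2 * k)) (by simp only [Nat.card_Ico]; omega)
    have hqk := Finset.mem_Ico.mp hq
    have hclean : ∀ j, (pos j).val / d ≠ q := by
      intro j h
      exact hqn (Finset.mem_image.mpr ⟨j, Finset.mem_univ _, h⟩)
    obtain ⟨δ, h1, h2, h3, h4, h5, h6⟩ := exists_delta_of_clean hodd hJ chain pos hsat hc' p' s t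
      (q := q) hqk.2 hclean (by
        intro l hl
        have hlt : p'.val < l.val := by
          have h7 : q * d ≤ l.val := by
            rw [← hl]
            exact Nat.div_mul_le_self _ _
          have h8 : k * d ≤ q * d := Nat.mul_le_mul_right _ hqk.1
          omega
        have hlt' : p' < l := hlt
        simp [t, s, not_lt.mpr hlt'.le, hlt'.ne']
        rfl)
    refine ⟨δ, h1, fun j => ?_, h3, h4, ?_, ?_⟩
    · rw [prefixSum_eq_sum]
      exact h2 j
    · rw [if_neg hright, prefixSum_eq_sum]
      exact h5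
    · rw [hts, h5, h6, zero_add]

end Vale.Agent.Lib.P310
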