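import Mathlib

/-!
# The Fredholm alternative over the field with two elements
-/

namespace Vale.Agent.Lib.P310

lemma zmod2_eq_one_of_ne {a : ZMod 2} (h : a ≠ 0) : a = 1 := by
  revert a; decide

lemma fredholm {ι κ : Type} [Fintype ι] [Fintype κ] [DecidableEq κ] (F : ι → κ → ZMod 2)
    (t : κ → ZMod 2) :
    (∃ γ : ι → ZMod 2, ∀ l, t l = ∑ i, γ i * F i l) ∨
      ∃ δ : κ → ZMod 2, (∀ i, ∑ l, F i l * δ l = 0) ∧ ∑ l, t l * δ l = 1 := by
  by_cases h : t ∈ Submodule.span (ZMod 2) (Set.range F)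
  · left
    obtain ⟨γ, hγ⟩ := (Submodule.mem_span_range_iff_exists_fun (ZMod 2)).mp h
    refine ⟨γ, fun l => ?_⟩
    rw [← hγ]
    simp [Finset.sum_apply]
  · right
    obtain ⟨f, hf, hf'⟩ := Submodule.exists_dual_map_eq_bot_of_notMem h inferInstance
    have hrep : ∀ x, f x = ∑ l, x l * f (fun j => if l = j then 1 else 0) := by
      intro x
      rw [LinearMap.pi_apply_eq_sum_univ f x]
      simp
    refine ⟨fun l => f (fun j => if l = j then 1 else 0), fun i => ?_, ?_⟩
    · rw [← hrep]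
      have hmem : f (F i) ∈ (Submodule.span (ZMod 2) (Set.range F)).map f :=
        Submodule.mem_map_of_mem (Submodule.subset_span ⟨i, rfl⟩)
      rw [hf'] at hmem
      exact (Submodule.mem_bot _).mp hmem
    · rw [← hrep]
      exact zmod2_eq_one_of_ne hf

end Vale.Agent.Lib.P310
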