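import Vale.Agent.Lib.P310.Graph
import Vale.Agent.Lib.P310.LinAlg

/-!
# Duplicator's strategy: without odd dependencies of at most `k` chains the graphs are equivalent
-/

namespace Vale.Agent.Lib.P310

open Function

variable {k m L : ℕ}

lemma zmod2_add_self (a : ZMod 2) : a + a = 0 := by revert a; decide

/-- The sum of `w l * Y l` over the positions `l < p`. -/
def prefixSum (w Y : Fin L → ZMod 2) (p : Fin L) : ZMod 2 :=
  ∑ l ∈ Finset.univ.filter (fun l : Fin L => l < p), w l * Y l

lemma prefixSum_add (w Y δ : Fin L → ZMod 2) (p : Fin L) :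
    prefixSum w (Y + δ) p = prefixSum w Y p + prefixSum w δ p := by
  unfold prefixSum
  rw [← Finset.sum_add_distrib]
  refine Finset.sum_congr rfl fun l _ => ?_
  simp [mul_add]

lemma prefixSum_eq_sum (w Y : Fin L → ZMod 2) (p : Fin L) :
    prefixSum w Y p = ∑ l, (if l < p then w l else 0) * Y l := by
  unfold prefixSum
  rw [Finset.sum_filter]
  refine Finset.sum_congr rfl fun l _ => ?_
  split_ifs <;> simp

lemma prefixSum_succ (w Y : Fin L → ZMod 2) {p p' : Fin L} (hp : p.val + 1 = p'.val) :
    prefixSum w Y p' = prefixSum w Y p + w p * Y p := by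
  classical
  unfold prefixSum
  have : Finset.univ.filter (fun l : Fin L => l < p') =
      insert p (Finset.univ.filter (fun l : Fin L => l < p)) := by
    ext l
    simp only [Finset.mem_filter, Finset.mem_univ, true_and, Finset.mem_insert, Fin.lt_def, Fin.ext_iff]
    omega
  rw [this, Finset.sum_insert (by simp), add_comm]

lemma prefixSum_first (w Y : Fin L → ZMod 2) {p : Fin L} (hp : p.val = 0) :
    prefixSum w Y p = 0 := by
  unfold prefixSum
  apply Finset.sum_eq_zero
  intro l hl
  have := (Finset.mem_filter.mp hl).2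
  rw [Fin.lt_def] at this
  omega

lemma prefixSum_last (w Y : Fin L → ZMod 2) {p : Fin L} (hp : p.val + 1 = L) :
    prefixSum w Y p + w p * Y p = ∑ l, w l * Y l := by
  classical
  unfold prefixSum
  have : (Finset.univ : Finset (Fin L)) = insert p (Finset.univ.filter (fun l : Fin L => l < p)) := by
    ext l
    have hl : l.val < L := l.isLt
    simp only [Finset.mem_filter, Finset.mem_univ, true_and, Finset.mem_insert, Fin.lt_def,
      Fin.ext_iff, true_iff]
    omega
  conv_rhs => rw [this]
  rw [Finset.sum_insert (by simp), add_comm]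

variable (v : Fin m → Fin L → ZMod 2) (b : Fin m → ZMod 2)

/-- Chain `c` is satisfied by `Y` if its inner product with `Y` is its twist. -/
def Sat (Y : Fin L → ZMod 2) (c : Fin m) : Prop := ∑ l, v c l * Y l = b c

/-- The offset of the left cut variable of position `p` of chain `c` determined by `Y`. -/
def cutOffset (Y : Fin L → ZMod 2) (c : Fin m) (p : Fin L) : ZMod 2 :=
  prefixSum (v c) Y p + (if p.val = 0 then 0 else b c)

/-- The map on elements determined by `Y`. -/
def tauE (Y : Fin L → ZMod 2) (e : Elem m L) : Elem m L :=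
  (e.1, e.2.1, e.2.2.1 + cutOffset v b Y e.1 e.2.1, e.2.2.2 + Y e.2.1)

/-- The map on vertices determined by `Y`. -/
def tau (Y : Fin L → ZMod 2) (w : Vtx m L) : Vtx m L := (tauE v b Y w.1, w.2)

lemma cutOffset_succ (Y : Fin L → ZMod 2) (c : Fin m) {p p' : Fin L} (hp : p.val + 1 = p'.val) :
    cutOffset v b Y c p' = cutOffset v b Y c p + v c p * Y p + (if p.val = 0 then b c else 0) := by
  unfold cutOffset
  rw [prefixSum_succ _ _ hp, if_neg (by omega)]
  by_cases h : p.val = 0
  · simp only [h, if_true]
    ring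
  · simp only [h, if_false]
    ring

lemma zmod2_add_eq_add_iff (x y s t : ZMod 2) (h : s = t) : x = y ↔ x + s = y + t := by
  subst h
  revert x y s
  decide

lemma rightVal_tauE (Y : Fin L → ZMod 2) (c : Fin m) {p p' : Fin L} (hp : p.val + 1 = p'.val)
    (a β : ZMod 2) :
    rightVal v b (c, p, a + cutOffset v b Y c p, β + Y p) =
      rightVal v 0 (c, p, a, β) + cutOffset v b Y c p' := by
  rw [cutOffset_succ v b Y c hp]
  unfold rightVal
  simp only [Pi.zero_apply]
  by_cases h : p.val = 0
  · simp only [h, if_true]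
    ring
  · simp only [h, if_false]
    ring

lemma elemAdj_tauE (Y : Fin L → ZMod 2) (e e' : Elem m L) :
    ElemAdj v 0 e e' ↔ ElemAdj v b (tauE v b Y e) (tauE v b Y e') := by
  obtain ⟨c, p, a, β⟩ := e
  obtain ⟨c', p', a', β'⟩ := e'
  unfold ElemAdj
  simp only [tauE]
  refine or_congr ?_ (or_congr ?_ ?_)
  · refine and_congr_right fun hc => and_congr_right fun hp => ?_
    subst hc
    rw [rightVal_tauE v b Y c hp]
    exact zmod2_add_eq_add_iff _ _ _ _ rfl
  · refine and_congr_right fun hc => and_congr_right fun hp => ?_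
    subst hc
    rw [rightVal_tauE v b Y c hp]
    exact zmod2_add_eq_add_iff _ _ _ _ rfl
  · refine and_congr_right fun hc => and_congr_right fun hp => ?_
    subst hp
    exact zmod2_add_eq_add_iff _ _ _ _ rfl

variable {v b}

lemma boundaryFlag_tauE (hL : 2 ≤ L) {Y : Fin L → ZMod 2} (e : Elem m L) (hs : Sat v b Y e.1) :
    boundaryFlag v (tauE v b Y e) = boundaryFlag v e := by
  obtain ⟨c, p, a, β⟩ := e
  have hs' : ∑ l, v c l * Y l = b c := hs
  unfold boundaryFlag
  simp only [tauE]
  have h1 : ∀ (h0 : p.val = 0), a + cutOffset v b Y c p = a := by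
    intro h0
    unfold cutOffset
    rw [prefixSum_first _ _ h0]
    simp [h0]
  have h2 : ∀ (hl : p.val + 1 = L), (a + cutOffset v b Y c p) + v c p * (β + Y p) = a + v c p * β := by
    intro hl
    have h3 : p.val ≠ 0 := by omega
    unfold cutOffset
    rw [if_neg h3]
    have h4 := prefixSum_last (v c) Y hl
    rw [hs'] at h4
    have : a + (prefixSum (v c) Y p + b c) + v c p * (β + Y p) =
        a + v c p * β + (prefixSum (v c) Y p + v c p * Y p + b c) := by ring
    rw [this, h4, zmod2_add_self, add_zero]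
  by_cases h0 : p.val = 0
  · have hl : p.val + 1 ≠ L := by omega
    simp only [h0, true_and, zero_add, h1 h0]
    have hl' : (1 : ℕ) ≠ L := by omega
    simp [hl']
  · by_cases hl : p.val + 1 = L
    · simp only [h0, false_and, false_or, hl, true_and, h2 hl]
    · simp [h0, hl]

lemma leafCount_tauE (hL : 2 ≤ L) {Y : Fin L → ZMod 2} (e : Elem m L) (hs : Sat v b Y e.1) :
    leafCount v (tauE v b Y e) = leafCount v e := by
  unfold leafCount elemCode
  rw [boundaryFlag_tauE hL e hs]
  rfl

lemma tauE_tauE (Y : Fin L → ZMod 2) (e : Elem m L) : tauE v b Y (tauE v b Y e) = e := by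
  obtain ⟨c, p, a, β⟩ := e
  simp only [tauE, add_assoc, zmod2_add_self, add_zero]

lemma tau_tau (Y : Fin L → ZMod 2) (w : Vtx m L) : tau v b Y (tau v b Y w) = w := by
  obtain ⟨e, o⟩ := w
  simp [tau, tauE_tauE]

lemma tauE_injective (Y : Fin L → ZMod 2) : Function.Injective (tauE (m := m) v b Y) :=
  Function.LeftInverse.injective (tauE_tauE Y)

lemma tau_injective (Y : Fin L → ZMod 2) : Function.Injective (tau (m := m) v b Y) :=
  Function.LeftInverse.injective (tau_tau Y)

/-- The map of `Y` respects adjacency between vertices of satisfied chains. -/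
lemma adj_tau (hL : 2 ≤ L) {Y : Fin L → ZMod 2} (w w' : Vtx m L) (hs : Sat v b Y w.1.1)
    (hs' : Sat v b Y w'.1.1) :
    (chainGraph v 0).Adj w w' ↔ (chainGraph v b).Adj (tau v b Y w) (tau v b Y w') := by
  obtain ⟨e, (_ | i)⟩ := w <;> obtain ⟨e', (_ | j)⟩ := w'
  · exact elemAdj_tauE v b Y e e'
  · show (e = e' ∧ j.val < leafCount v e) ↔
      (tauE v b Y e = tauE v b Y e' ∧ j.val < leafCount v (tauE v b Y e))
    rw [leafCount_tauE hL e hs, (tauE_injective Y).eq_iff]
  · show (e = e' ∧ i.val < leafCount v e') ↔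
      (tauE v b Y e = tauE v b Y e' ∧ i.val < leafCount v (tauE v b Y e'))
    rw [leafCount_tauE hL e' hs', (tauE_injective Y).eq_iff]
  · exact Iff.rfl

variable (v b) in
/-- The relation of Duplicator's strategy. -/
def DupRel (x y : Fin k → Vtx m L) : Prop :=
  ∃ Y : Fin L → ZMod 2, (∀ j, Sat v b Y (x j).1.1) ∧ ∀ j, y j = tau v b Y (x j)

lemma DupRel.atomicType_eq (hL : 2 ≤ L) {x y : Fin k → Vtx m L} (h : DupRel v b x y) :
    atomicType (chainGraph v 0) x = atomicType (chainGraph v b) y := by
  obtain ⟨Y, hs, hy⟩ := h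
  funext i j
  have h1 : x i = x j ↔ y i = y j := by rw [hy i, hy j, (tau_injective Y).eq_iff]
  have h2 : (chainGraph v 0).Adj (x i) (x j) ↔ (chainGraph v b).Adj (y i) (y j) := by
    rw [hy i, hy j]
    exact adj_tau hL _ _ (hs i) (hs j)
  exact Prod.ext (decide_eq_decide.mpr h1) (decide_eq_decide.mpr h2)

end Vale.Agent.Lib.P310
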