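import Vale.Agent.Lib.P310.Correction

/-!
# Duplicator wins without an odd dependency
-/

namespace Vale.Agent.Lib.P310

open Function

variable {k m d : ℕ}

lemma repChain_small {hd : 0 < d} {hk : 1 ≤ k} (u : Fin m → Fin d → ZMod 2) (c : Fin m) (r : Fin d) :
    repChain k hd u c ⟨r.val, by
      have h1 := r.isLt
      have h2 : 1 * d ≤ 2 * k * d := Nat.mul_le_mul_right _ (by omega)
      omega⟩ = u c r := by
  unfold repChain
  congr 1
  exact Fin.ext (Nat.mod_eq_of_lt r.isLt)

/-- Any set of at most `k` chains can be satisfied simultaneously. -/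
lemma exists_sat (hk : 1 ≤ k) {hd : 0 < d} {u : Fin m → Fin d → ZMod 2} {b : Fin m → ZMod 2}
    (hodd : NoOddDep k u b) (Q : Finset (Fin m)) (hQ : Q.card ≤ k) :
    ∃ Y : Fin (2 * k * d) → ZMod 2, ∀ c ∈ Q, Sat (repChain k hd u) b Y c := by
  classical
  set v := repChain k hd u with hv
  let X : Fin m → (Fin (2 * k * d) ⊕ Unit) → ZMod 2 := fun c => Sum.elim (v c) (fun _ => b c)
  let F : Fin m → (Fin (2 * k * d) ⊕ Unit) → ZMod 2 := fun c l => if c ∈ Q then X c l else 0
  let t : (Fin (2 * k * d) ⊕ Unit) → ZMod 2 := Sum.elim 0 (fun _ => 1)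
  rcases fredholm F t with ⟨γ, hγ⟩ | ⟨δ, hδ, hδ₁⟩
  · exfalso
    let S := Q.filter (fun c => γ c = 1)
    have hsum : ∀ l, t l = ∑ c ∈ S, X c l := by
      intro l
      rw [hγ l, Finset.sum_filter]
      simp only [F, mul_ite, mul_zero, Finset.sum_ite_mem, Finset.univ_inter]
      refine Finset.sum_congr rfl fun c _ => ?_
      have h2 : γ c = 0 ∨ γ c = 1 := by
        generalize γ c = a
        revert a
        decide
      rcases h2 with h2 | h2 <;> simp [h2]
    have h1 := hodd S ((Finset.card_filter_le _ _).trans hQ) (by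
      funext r
      have h3 := hsum (Sum.inl ⟨r.val, by
        have h1 := r.isLt
        have h2 : 1 * d ≤ 2 * k * d := Nat.mul_le_mul_right _ (by omega)
        omega⟩)
      simp only [t, X, Sum.elim_inl] at h3
      rw [Finset.sum_apply]
      simp only [Pi.zero_apply] at h3 ⊢
      rw [h3]
      refine Finset.sum_congr rfl fun c _ => ?_
      exact (repChain_small (hk := hk) u c r).symm)
    have h3 := hsum (Sum.inr ())
    simp only [t, X, Sum.elim_inr] at h3
    rw [h1] at h3
    exact one_ne_zero h3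
  · have hη : δ (Sum.inr ()) = 1 := by
      simpa [t] using hδ₁
    refine ⟨fun l => δ (Sum.inl l), fun c hc => ?_⟩
    have h1 := hδ c
    rw [Fintype.sum_sum_type] at h1
    simp only [F, if_pos hc, X, Sum.elim_inl, Sum.elim_inr, Fintype.sum_unique, hη, mul_one] at h1
    have h2 : ∀ s t : ZMod 2, s + t = 0 → s = t := by decide
    exact h2 _ _ h1

/-- Duplicator's answer. -/
theorem dupRel_ext (hk : 2 ≤ k) {hd : 0 < d} {u : Fin m → Fin d → ZMod 2} {b : Fin m → ZMod 2}
    (hodd : NoOddDep k u b) {x y : Fin k → Vtx m (2 * k * d)}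
    (h : DupRel (repChain k hd u) b x y) :
    ∃ f : Vtx m (2 * k * d) ≃ Vtx m (2 * k * d), ∀ w i,
      DupRel (repChain k hd u) b (update x i w) (update y i (f w)) := by
  classical
  set v := repChain k hd u with hv
  obtain ⟨Y, hs, hy⟩ := h
  let dL : Fin m → Fin (2 * k * d) → ZMod 2 := fun c p =>
    cutOffset v b Y c p + (if ¬ Sat v b Y c ∧ k * d ≤ p.val then 1 else 0)
  let φ : Vtx m (2 * k * d) → Vtx m (2 * k * d) := fun w =>
    ((w.1.1, w.1.2.1, w.1.2.2.1 + dL w.1.1 w.1.2.1, w.1.2.2.2 + Y w.1.2.1), w.2)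
  have hφ : Function.Involutive φ := by
    rintro ⟨⟨c, p, a, β⟩, o⟩
    simp only [φ, add_assoc, zmod2_add_self, add_zero]
  refine ⟨Function.Involutive.toPerm φ hφ, ?_⟩
  intro w i
  have hf : Function.Involutive.toPerm φ hφ w = φ w := rfl
  rw [hf]
  -- it suffices to find a good assignment
  suffices hY : ∃ Y' : Fin (2 * k * d) → ZMod 2, Sat v b Y' w.1.1 ∧ φ w = tau v b Y' w ∧
      ∀ j, j ≠ i → Sat v b Y' (x j).1.1 ∧ y j = tau v b Y' (x j) by
    obtain ⟨Y', h1, h2, h3⟩ := hY
    refine ⟨Y', fun j => ?_, fun j => ?_⟩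
    · by_cases hj : j = i
      · subst hj
        simpa using h1
      · rw [update_of_ne hj]
        exact (h3 j hj).1
    · by_cases hj : j = i
      · subst hj
        simpa using h2
      · rw [update_of_ne hj, update_of_ne hj]
        exact (h3 j hj).2
  by_cases hc : Sat v b Y w.1.1
  · refine ⟨Y, hc, ?_, fun j _ => ⟨hs j, hy j⟩⟩
    obtain ⟨⟨c, p, a, β⟩, o⟩ := w
    have hc' : Sat v b Y c := hc
    simp [φ, tau, tauE, dL, hc']
  · let J := {j : Fin k // j ≠ i}
    have hJ : Fintype.card J + 1 ≤ k := by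
      have : Fintype.card J = k - 1 := by
        simp [J, Fintype.card_subtype_compl]
      omega
    obtain ⟨δ, h1, h2, h3, h4, h5, h6⟩ := exists_correction (hd := hd) hodd hJ (Y := Y)
      (fun j : J => (x j.1).1.1) (fun j : J => (x j.1).1.2.1) (fun j => hs j.1) hc w.1.2.1
    have hsum : ∀ c, ∑ l, v c l * (Y + δ) l = ∑ l, v c l * Y l + ∑ l, v c l * δ l := by
      intro c
      rw [← Finset.sum_add_distrib]
      refine Finset.sum_congr rfl fun l _ => ?_
      simp [mul_add]
    have hcut : ∀ c p, cutOffset v b (Y + δ) c p = cutOffset v b Y c p + prefixSum (v c) δ p := by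
      intro c p
      unfold cutOffset
      rw [prefixSum_add]
      ring
    refine ⟨Y + δ, ?_, ?_, ?_⟩
    · unfold Sat at hc ⊢
      rw [hsum, h6]
      have h7 : ∀ s t : ZMod 2, s ≠ t → s + 1 = t := by decide
      exact h7 _ _ hc
    · obtain ⟨⟨c, p, a, β⟩, o⟩ := w
      have hc' : ¬ Sat v b Y c := hc
      simp only [φ, tau, tauE, dL, hcut, Pi.add_apply]
      simp only at h4 h5
      rw [h4, h5, add_zero]
      simp [hc']
    · intro j hj
      have hj' := hs j
      refine ⟨?_, ?_⟩
      · unfold Sat at hj' ⊢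
        rw [hsum, h3 ⟨j, hj⟩, add_zero, hj']
      · rw [hy j]
        rcases hxj : x j with ⟨⟨c, p, a, β⟩, o⟩
        have h8 := h1 ⟨j, hj⟩
        have h9 := h2 ⟨j, hj⟩
        simp only [hxj] at h8 h9
        have h9' : prefixSum (v c) δ p = 0 := h9
        simp only [tau, tauE, hcut, Pi.add_apply, h8, h9', add_zero]

/-- No odd dependency of at most `k` chains: the two graphs are `k`-WL equivalent. -/
theorem wlEquiv_of_noOddDep (hk : 2 ≤ k) {hd : 0 < d} {u : Fin m → Fin d → ZMod 2}
    {b : Fin m → ZMod 2} (hodd : NoOddDep k u b) :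
    WLEquiv k (chainGraph (repChain k hd u) 0) (chainGraph (repChain k hd u) b) := by
  classical
  set v := repChain k hd u with hv
  have hL : 2 ≤ 2 * k * d := by
    have : 1 * 1 ≤ k * d := Nat.mul_le_mul (by omega) hd
    rw [Nat.mul_assoc]
    omega
  -- a canonical assignment for each set of chains
  have hY : ∀ Q : Finset (Fin m), ∃ Y : Fin (2 * k * d) → ZMod 2,
      Q.card ≤ k → ∀ c ∈ Q, Sat v b Y c := by
    intro Q
    by_cases hQ : Q.card ≤ k
    · obtain ⟨Y, hY⟩ := exists_sat (by omega) (hd := hd) hodd Q hQ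
      exact ⟨Y, fun _ => hY⟩
    · exact ⟨0, fun h => absurd h hQ⟩
  choose YQ hYQ using hY
  let chains : (Fin k → Vtx m (2 * k * d)) → Finset (Fin m) :=
    fun x => Finset.univ.image (fun j => (x j).1.1)
  let Φ : (Fin k → Vtx m (2 * k * d)) → (Fin k → Vtx m (2 * k * d)) :=
    fun x j => tau v b (YQ (chains x)) (x j)
  have hchains : ∀ x, chains (Φ x) = chains x := by
    intro x
    simp only [chains, Φ]
    rfl
  have hΦ : Function.Involutive Φ := by
    intro x
    funext j
    simp only [Φ]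
    have : chains (fun j => tau v b (YQ (chains x)) (x j)) = chains x := hchains x
    rw [this, tau_tau]
  refine wlEquiv_of_game (DupRel v b) (fun x y h => h.atomicType_eq hL)
    (fun x y h => dupRel_ext hk hodd h) (Function.Involutive.toPerm Φ hΦ) ?_
  intro x
  refine ⟨YQ (chains x), fun j => ?_, fun j => rfl⟩
  refine hYQ (chains x) ?_ _ (Finset.mem_image.mpr ⟨j, Finset.mem_univ _, rfl⟩)
  refine Finset.card_image_le.trans ?_
  simp

end Vale.Agent.Lib.P310
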