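import Vale.Agent.Lib.P310.Game
import Vale.Agent.Lib.P310.ChainDefs

/-!
# Degrees in the chain graphs
-/

namespace Vale.Agent.Lib.P310

variable {m L : ℕ}

lemma chainGraph_adj_none_none (v : Fin m → Fin L → ZMod 2) (b : Fin m → ZMod 2) (e e' : Elem m L) :
    (chainGraph v b).Adj (e, none) (e', none) ↔ ElemAdj v b e e' := Iff.rfl

lemma chainGraph_adj_none_some (v : Fin m → Fin L → ZMod 2) (b : Fin m → ZMod 2) (e e' : Elem m L)
    (i : Fin (2 * m * L * (4 * m * L + 1))) :
    (chainGraph v b).Adj (e, none) (e', some i) ↔ e = e' ∧ i.val < leafCount v e := Iff.rfl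

lemma chainGraph_adj_some_none (v : Fin m → Fin L → ZMod 2) (b : Fin m → ZMod 2) (e e' : Elem m L)
    (i : Fin (2 * m * L * (4 * m * L + 1))) :
    (chainGraph v b).Adj (e, some i) (e', none) ↔ e = e' ∧ i.val < leafCount v e' := Iff.rfl

lemma chainGraph_not_adj_some_some (v : Fin m → Fin L → ZMod 2) (b : Fin m → ZMod 2)
    (e e' : Elem m L) (i j : Fin (2 * m * L * (4 * m * L + 1))) :
    ¬ (chainGraph v b).Adj (e, some i) (e', some j) := id

lemma boundaryFlag_le (v : Fin m → Fin L → ZMod 2) (e : Elem m L) : boundaryFlag v e ≤ 1 := by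
  unfold boundaryFlag; split_ifs <;> omega

lemma elemCode_lt (v : Fin m → Fin L → ZMod 2) (e : Elem m L) : elemCode v e < 2 * m * L := by
  have h1 := boundaryFlag_le v e
  have hc : e.1.val + 1 ≤ m := e.1.isLt
  have hp : e.2.1.val + 1 ≤ L := e.2.1.isLt
  have h2 : L * (e.1.val + 1) ≤ L * m := Nat.mul_le_mul_left _ hc
  unfold elemCode
  have h3 : L * (e.1.val + 1) = L * e.1.val + L := by ring
  have h4 : 2 * m * L = 2 * (L * m) := by ring
  omega

lemma leafCount_le (v : Fin m → Fin L → ZMod 2) (e : Elem m L) :
    leafCount v e ≤ 2 * m * L * (4 * m * L + 1) := by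
  unfold leafCount
  exact Nat.mul_le_mul_right _ (elemCode_lt v e)

/-- The element at chain `c`, position `p` that is all zero. -/
def zeroVtx (c : Fin m) (p : Fin L) : Vtx m L := ((c, p, 0, 0), none)

lemma degree_none_ge (v : Fin m → Fin L → ZMod 2) (b : Fin m → ZMod 2) (e : Elem m L)
    [Fintype ((chainGraph v b).neighborSet (e, none))] :
    leafCount v e ≤ (chainGraph v b).degree (e, none) := by
  classical
  rw [← SimpleGraph.card_neighborFinset_eq_degree]
  have hsub : (Finset.range (leafCount v e)).attach.image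
      (fun i => ((e, some ⟨i.1, lt_of_lt_of_le (Finset.mem_range.mp i.2) (leafCount_le v e)⟩) :
        Vtx m L)) ⊆ (chainGraph v b).neighborFinset (e, none) := by
    intro w hw
    obtain ⟨i, -, rfl⟩ := Finset.mem_image.mp hw
    simp only [SimpleGraph.mem_neighborFinset]
    exact ⟨rfl, Finset.mem_range.mp i.2⟩
  have hcard := Finset.card_le_card hsub
  rwa [Finset.card_image_of_injective, Finset.card_attach, Finset.card_range] at hcard
  intro i j hij
  have := congrArg Prod.snd hij
  simp only [Option.some.injEq, Fin.mk.injEq] at this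
  exact Subtype.ext this

lemma degree_none_le (v : Fin m → Fin L → ZMod 2) (b : Fin m → ZMod 2) (e : Elem m L)
    [Fintype ((chainGraph v b).neighborSet (e, none))] :
    (chainGraph v b).degree (e, none) ≤ leafCount v e + 4 * m * L := by
  classical
  rw [← SimpleGraph.card_neighborFinset_eq_degree]
  have hsub : (chainGraph v b).neighborFinset (e, none) ⊆
      (Finset.range (leafCount v e)).attach.image
        (fun i => ((e, some ⟨i.1, lt_of_lt_of_le (Finset.mem_range.mp i.2) (leafCount_le v e)⟩) :
          Vtx m L)) ∪ (Finset.univ : Finset (Elem m L)).image (fun e' => ((e', none) : Vtx m L)) := by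
    rintro ⟨e', (_ | i)⟩ hw
    · exact Finset.mem_union_right _ (Finset.mem_image.mpr ⟨e', Finset.mem_univ _, rfl⟩)
    · simp only [SimpleGraph.mem_neighborFinset] at hw
      obtain ⟨rfl, hi⟩ := hw
      refine Finset.mem_union_left _ (Finset.mem_image.mpr
        ⟨⟨i.val, Finset.mem_range.mpr hi⟩, Finset.mem_attach _ _, rfl⟩)
  refine (Finset.card_le_card hsub).trans ((Finset.card_union_le _ _).trans ?_)
  refine Nat.add_le_add ?_ ?_
  · refine Finset.card_image_le.trans ?_
    simp
  · refine Finset.card_image_le.trans ?_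
    simp only [Finset.card_univ, Fintype.card_prod, Fintype.card_fin, ZMod.card]
    apply le_of_eq
    ring

lemma degree_some_le (v : Fin m → Fin L → ZMod 2) (b : Fin m → ZMod 2) (e : Elem m L)
    (i : Fin (2 * m * L * (4 * m * L + 1)))
    [Fintype ((chainGraph v b).neighborSet (e, some i))] :
    (chainGraph v b).degree (e, some i) ≤ 1 := by
  classical
  rw [← SimpleGraph.card_neighborFinset_eq_degree]
  have hsub : (chainGraph v b).neighborFinset (e, some i) ⊆ {((e, none) : Vtx m L)} := by
    rintro ⟨e', (_ | j)⟩ hw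
    · simp only [SimpleGraph.mem_neighborFinset] at hw
      obtain ⟨rfl, -⟩ := hw
      simp
    · simp only [SimpleGraph.mem_neighborFinset] at hw
      exact absurd hw (chainGraph_not_adj_some_some v b e e' i j)
  simpa using Finset.card_le_card hsub

/-- The degree of an element vertex determines its code, and leaf vertices are excluded. -/
lemma eq_of_degree_eq (v : Fin m → Fin L → ZMod 2) (b b' : Fin m → ZMod 2) (e : Elem m L)
    (w : Vtx m L) [Fintype ((chainGraph v b).neighborSet (e, none))]
    [Fintype ((chainGraph v b').neighborSet w)]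
    (h : (chainGraph v b).degree (e, none) = (chainGraph v b').degree w) :
    ∃ e', w = (e', none) ∧ elemCode v e' = elemCode v e := by
  classical
  obtain ⟨e', (_ | i)⟩ := w
  · refine ⟨e', rfl, ?_⟩
    have h1 := degree_none_ge v b e
    have h2 := degree_none_le v b e
    have h3 := degree_none_ge v b' e'
    have h4 := degree_none_le v b' e'
    by_contra hne
    rcases Nat.lt_or_gt_of_ne hne with hlt | hlt
    · have : leafCount v e' + 4 * m * L < leafCount v e' + 4 * m * L + 1 := by omega
      have h6 : (elemCode v e' + 1 + 1) * (4 * m * L + 1) ≤ (elemCode v e + 1) * (4 * m * L + 1) :=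
        Nat.mul_le_mul_right _ (by omega)
      unfold leafCount at h1 h3 h4
      have h7 : (elemCode v e' + 1 + 1) * (4 * m * L + 1) =
          (elemCode v e' + 1) * (4 * m * L + 1) + (4 * m * L + 1) := by ring
      have h8 := Nat.mul_le_mul_right (4 * m * L + 1) (Nat.succ_le_of_lt hlt)
      omega
    · have h6 : (elemCode v e + 1 + 1) * (4 * m * L + 1) ≤ (elemCode v e' + 1) * (4 * m * L + 1) :=
        Nat.mul_le_mul_right _ (by omega)
      unfold leafCount at h1 h2 h3
      have h7 : (elemCode v e + 1 + 1) * (4 * m * L + 1) =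
          (elemCode v e + 1) * (4 * m * L + 1) + (4 * m * L + 1) := by ring
      omega
  · exfalso
    have h1 := degree_none_ge v b e
    have h3 := degree_some_le v b' e' i
    have h6 : 1 ≤ m := e.1.pos
    have h7 : 1 ≤ L := e.2.1.pos
    have h8 : 1 ≤ m * L := Nat.mul_pos h6 h7
    have h9 : 4 * m * L = 4 * (m * L) := by ring
    have h10 : 4 * m * L + 1 ≤ leafCount v e := by
      unfold leafCount
      exact Nat.le_mul_of_pos_left _ (Nat.succ_pos _)
    omega

/-- Equal codes mean equal chains, positions and flags. -/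
lemma elemCode_eq (v : Fin m → Fin L → ZMod 2) (e e' : Elem m L)
    (h : elemCode v e = elemCode v e') :
    e.1 = e'.1 ∧ e.2.1 = e'.2.1 ∧ boundaryFlag v e = boundaryFlag v e' := by
  have h1 := boundaryFlag_le v e
  have h2 := boundaryFlag_le v e'
  unfold elemCode at h
  have h3 : boundaryFlag v e = boundaryFlag v e' := by omega
  have h4 : L * e.1.val + e.2.1.val = L * e'.1.val + e'.2.1.val := by omega
  have hp : e.2.1.val < L := e.2.1.isLt
  have hp' : e'.2.1.val < L := e'.2.1.isLt
  have hL : 0 < L := by omega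
  have h5 : e.1.val = e'.1.val := by
    have h6 : (L * e.1.val + e.2.1.val) / L = (L * e'.1.val + e'.2.1.val) / L := by rw [h4]
    rwa [Nat.mul_add_div hL, Nat.mul_add_div hL, Nat.div_eq_of_lt hp, Nat.div_eq_of_lt hp',
      Nat.add_zero, Nat.add_zero] at h6
  have h6 : e.2.1.val = e'.2.1.val := by
    rw [h5] at h4
    omega
  exact ⟨Fin.ext h5, Fin.ext h6, h3⟩

end Vale.Agent.Lib.P310
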