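import Vale.Agent.Lib.P310.Graph

/-!
# Spoiler's sweep: an odd dependency of at most `k` chains is detected by `k`-WL
-/

namespace Vale.Agent.Lib.P310

open Function

variable {k m L : ℕ} {v : Fin m → Fin L → ZMod 2} {b : Fin m → ZMod 2}

lemma elem_of_elem (hk : 2 ≤ k) {x y : Fin k → Vtx m L}
    (h : SameColor (chainGraph v 0) (chainGraph v b) x y) (j : Fin k) {e : Elem m L}
    (hx : x j = (e, none)) : ∃ e', y j = (e', none) ∧ elemCode v e' = elemCode v e := by
  classical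
  have := h.degree_eq hk j
  rw [hx] at this
  exact eq_of_degree_eq v 0 b e (y j) this

lemma adj_zero_succ (c : Fin m) (p p' : Fin L) (hp : p.val + 1 = p'.val) :
    (chainGraph v 0).Adj (zeroVtx c p) (zeroVtx c p') := by
  refine Or.inl ⟨rfl, hp, ?_⟩
  show (0 : ZMod 2) = 0 + v c p * 0 + (if p.val = 0 then (0 : ZMod 2) else 0)
  simp

lemma adj_zero_same {c c' : Fin m} (p : Fin L) (hc : c ≠ c') :
    (chainGraph v 0).Adj (zeroVtx c p) (zeroVtx c' p) :=
  Or.inr (Or.inr ⟨hc, rfl, rfl⟩)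

lemma boundaryFlag_zero (c : Fin m) (p : Fin L) : boundaryFlag v (c, p, 0, 0) = 0 := by
  simp [boundaryFlag]

lemma advance (hk : 2 ≤ k) {x y : Fin k → Vtx m L}
    (h : SameColor (chainGraph v 0) (chainGraph v b) x y) {j : Fin k} {c : Fin m} {p p' : Fin L}
    (hp : p.val + 1 = p'.val) {a β : ZMod 2}
    (hx : x j = zeroVtx c p) (hy : y j = ((c, p, a, β), none)) :
    ∃ β', SameColor (chainGraph v 0) (chainGraph v b) (update x j (zeroVtx c p'))
      (update y j ((c, p', rightVal v b (c, p, a, β), β'), none)) := by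
  classical
  obtain ⟨f, hf⟩ := h.exists_equiv
  have hs := hf (zeroVtx c p') j
  obtain ⟨e', he', hcode⟩ := elem_of_elem (e := (c, p', 0, 0)) hk hs j (by simp [zeroVtx])
  rw [update_self] at he'
  obtain ⟨h1, h2, -⟩ := elemCode_eq v _ _ hcode
  have hadj := (SameColor.adj_answer hk hf (zeroVtx c p') j).mp
    (by rw [hx]; exact adj_zero_succ c p p' hp)
  rw [hy, he'] at hadj
  obtain ⟨c', p'', a', β'⟩ := e'
  simp only at h1 h2
  subst h1 h2
  refine ⟨β', ?_⟩
  have hadj' : ElemAdj v b (c', p, a, β) (c', p'', a', β') := hadj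
  rcases hadj' with h3 | h3 | h3
  · have h4 : a' = rightVal v b (c', p, a, β) := h3.2.2
    rw [← h4, ← he']
    exact hs
  · have := h3.2.1
    simp only at this
    omega
  · exact absurd rfl h3.1

lemma place (hk : 2 ≤ k) {x y : Fin k → Vtx m L}
    (h : SameColor (chainGraph v 0) (chainGraph v b) x y) (j : Fin k) (c : Fin m) (p : Fin L)
    (hp : p.val = 0) :
    ∃ β', SameColor (chainGraph v 0) (chainGraph v b) (update x j (zeroVtx c p))
      (update y j ((c, p, 0, β'), none)) := by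
  classical
  obtain ⟨f, hf⟩ := h.exists_equiv
  have hs := hf (zeroVtx c p) j
  obtain ⟨e', he', hcode⟩ := elem_of_elem (e := (c, p, 0, 0)) hk hs j (by simp [zeroVtx])
  rw [update_self] at he'
  obtain ⟨h1, h2, h3⟩ := elemCode_eq v _ _ hcode
  obtain ⟨c', p'', a', β'⟩ := e'
  simp only at h1 h2
  subst h1 h2
  rw [boundaryFlag_zero] at h3
  refine ⟨β', ?_⟩
  have ha : a' = 0 := by
    by_contra hne
    have : boundaryFlag v (c', p'', a', β') = 1 := by
      simp only [boundaryFlag]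
      rw [if_pos (Or.inl ⟨hp, hne⟩)]
    omega
  rw [← ha, ← he']
  exact hs

lemma endpoint (hk : 2 ≤ k) {x y : Fin k → Vtx m L}
    (h : SameColor (chainGraph v 0) (chainGraph v b) x y) {j : Fin k} {c : Fin m} {p : Fin L}
    (hp : p.val + 1 = L) {a β : ZMod 2}
    (hx : x j = zeroVtx c p) (hy : y j = ((c, p, a, β), none)) : a + v c p * β = 0 := by
  classical
  obtain ⟨e', he', hcode⟩ := elem_of_elem (e := (c, p, 0, 0)) hk h j hx
  rw [hy] at he'
  have he'' := (Prod.ext_iff.mp he').1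
  simp only at he''
  subst he''
  obtain ⟨-, -, h3⟩ := elemCode_eq v _ _ hcode
  rw [boundaryFlag_zero] at h3
  by_contra hne
  have : boundaryFlag v (c, p, a, β) = 1 := by
    simp only [boundaryFlag]
    rw [if_pos (Or.inr ⟨hp, hne⟩)]
  omega

lemma stage (hk : 2 ≤ k) {S : Finset (Fin m)} {g : Fin m → Fin k} (hg : Set.InjOn g S)
    {x y : Fin k → Vtx m L} (h : SameColor (chainGraph v 0) (chainGraph v b) x y)
    {p p' : Fin L} (hp : p.val + 1 = p'.val) (a₀ β₀ : Fin m → ZMod 2)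
    (hx : ∀ c ∈ S, x (g c) = zeroVtx c p) (hy : ∀ c ∈ S, y (g c) = ((c, p, a₀ c, β₀ c), none))
    (A : Finset (Fin m)) (hA : A ⊆ S) :
    ∃ (x' y' : Fin k → Vtx m L) (β₁ : Fin m → ZMod 2),
      SameColor (chainGraph v 0) (chainGraph v b) x' y' ∧
      ∀ c ∈ S, (c ∈ A → x' (g c) = zeroVtx c p' ∧
          y' (g c) = ((c, p', rightVal v b (c, p, a₀ c, β₀ c), β₁ c), none)) ∧
        (c ∉ A → x' (g c) = zeroVtx c p ∧ y' (g c) = ((c, p, a₀ c, β₀ c), none)) := by
  classical
  induction A using Finset.induction_on with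
  | empty =>
    refine ⟨x, y, β₀, h, fun c hc => ⟨fun hc' => absurd hc' (by simp), fun _ => ⟨hx c hc, hy c hc⟩⟩⟩
  | insert c₁ A hc₁ ih =>
    have hAS : A ⊆ S := fun c hc => hA (Finset.mem_insert_of_mem hc)
    have hc₁S : c₁ ∈ S := hA (Finset.mem_insert_self _ _)
    obtain ⟨x', y', β₁, hxy, hs⟩ := ih hAS
    obtain ⟨hx₁, hy₁⟩ := (hs c₁ hc₁S).2 hc₁
    obtain ⟨β', hnew⟩ := advance hk hxy hp hx₁ hy₁
    refine ⟨_, _, update β₁ c₁ β', hnew, ?_⟩
    intro c hc
    by_cases hcc : c = c₁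
    · subst hcc
      refine ⟨fun _ => ?_, fun hn => absurd (Finset.mem_insert_self _ _) hn⟩
      simp
    · have hgc : g c ≠ g c₁ := fun he => hcc (hg hc hc₁S he)
      rw [update_of_ne hgc, update_of_ne hgc, update_of_ne hcc]
      refine ⟨fun hm => (hs c hc).1 ((Finset.mem_insert.mp hm).resolve_left hcc), fun hm => ?_⟩
      exact (hs c hc).2 (fun hm' => hm (Finset.mem_insert_of_mem hm'))

lemma place_all (hk : 2 ≤ k) {S : Finset (Fin m)} {g : Fin m → Fin k} (hg : Set.InjOn g S)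
    {x y : Fin k → Vtx m L} (h : SameColor (chainGraph v 0) (chainGraph v b) x y)
    (p : Fin L) (hp : p.val = 0) (A : Finset (Fin m)) (hA : A ⊆ S) :
    ∃ (x' y' : Fin k → Vtx m L) (β₁ : Fin m → ZMod 2),
      SameColor (chainGraph v 0) (chainGraph v b) x' y' ∧
      ∀ c ∈ A, x' (g c) = zeroVtx c p ∧ y' (g c) = ((c, p, 0, β₁ c), none) := by
  classical
  induction A using Finset.induction_on with
  | empty => exact ⟨x, y, 0, h, by simp⟩
  | insert c₁ A hc₁ ih =>
    have hAS : A ⊆ S := fun c hc => hA (Finset.mem_insert_of_mem hc)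
    have hc₁S : c₁ ∈ S := hA (Finset.mem_insert_self _ _)
    obtain ⟨x', y', β₁, hxy, hs⟩ := ih hAS
    obtain ⟨β', hnew⟩ := place hk hxy (g c₁) c₁ p hp
    refine ⟨_, _, update β₁ c₁ β', hnew, ?_⟩
    intro c hc
    by_cases hcc : c = c₁
    · subst hcc
      simp
    · have hcA : c ∈ A := (Finset.mem_insert.mp hc).resolve_left hcc
      have hgc : g c ≠ g c₁ := fun he => hcc (hg (hAS hcA) hc₁S he)
      rw [update_of_ne hgc, update_of_ne hgc, update_of_ne hcc]
      exact hs c hcA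

lemma common_bit {S : Finset (Fin m)} {g : Fin m → Fin k}
    {x y : Fin k → Vtx m L} (h : SameColor (chainGraph v 0) (chainGraph v b) x y)
    {p : Fin L} {a₀ β₀ : Fin m → ZMod 2}
    (hx : ∀ c ∈ S, x (g c) = zeroVtx c p) (hy : ∀ c ∈ S, y (g c) = ((c, p, a₀ c, β₀ c), none))
    {c c' : Fin m} (hc : c ∈ S) (hc' : c' ∈ S) : β₀ c = β₀ c' := by
  by_cases hcc : c = c'
  · rw [hcc]
  have hadj := (h.adj_iff (g c) (g c')).mp (by rw [hx c hc, hx c' hc']; exact adj_zero_same p hcc)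
  rw [hy c hc, hy c' hc'] at hadj
  have hadj' : ElemAdj v b (c, p, a₀ c, β₀ c) (c', p, a₀ c', β₀ c') := hadj
  rcases hadj' with h3 | h3 | h3
  · exact absurd h3.1 hcc
  · exact absurd h3.1 hcc
  · exact h3.2.2

/-- The sweep: if all chains of a set `S` of at most `k` chains add up to zero, and `G`, `H` are
`k`-WL equivalent, the twists of `S` add up to zero. -/
theorem sum_twist_eq_zero (hk : 2 ≤ k) (hL : 2 ≤ L)
    (hw : WLEquiv k (chainGraph v 0) (chainGraph v b)) (S : Finset (Fin m)) (hS : S.card ≤ k)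
    (hdep : ∀ p, ∑ c ∈ S, v c p = 0) : ∑ c ∈ S, b c = 0 := by
  classical
  rcases S.eq_empty_or_nonempty with rfl | ⟨c₀, hc₀⟩
  · simp
  -- an injection of `S` into the coordinates
  obtain ⟨g, hg⟩ : ∃ g : Fin m → Fin k, Set.InjOn g S := by
    refine ⟨fun c => if h : c ∈ S then Fin.castLE hS (S.equivFin ⟨c, h⟩) else ⟨0, by omega⟩, ?_⟩
    intro c hc c' hc' he
    have hc1 : c ∈ S := hc
    have hc2 : c' ∈ S := hc'
    simp only [dif_pos hc1, dif_pos hc2] at he
    have := S.equivFin.injective (Fin.castLE_injective hS he)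
    exact congrArg Subtype.val this
  -- the sweep
  have claim : ∀ (p : ℕ) (hp : p < L), ∃ (x y : Fin k → Vtx m L) (a₀ β₀ : Fin m → ZMod 2),
      SameColor (chainGraph v 0) (chainGraph v b) x y ∧
      (∀ c ∈ S, x (g c) = zeroVtx c ⟨p, hp⟩) ∧
      (∀ c ∈ S, y (g c) = ((c, ⟨p, hp⟩, a₀ c, β₀ c), none)) ∧
      ∑ c ∈ S, a₀ c = if p = 0 then 0 else ∑ c ∈ S, b c := by
    intro p
    induction p with
    | zero =>
      intro hp
      obtain ⟨y, hy⟩ := exists_sameColor_of_wlEquiv hw (fun _ => zeroVtx c₀ ⟨0, hp⟩)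
      obtain ⟨x', y', β₁, hxy, hs⟩ := place_all hk hg hy ⟨0, hp⟩ rfl S (Finset.Subset.refl _)
      refine ⟨x', y', 0, β₁, hxy, fun c hc => (hs c hc).1, fun c hc => (hs c hc).2, by simp⟩
    | succ p ih =>
      intro hp
      obtain ⟨x, y, a₀, β₀, hxy, hx, hy, hsum⟩ := ih (by omega)
      obtain ⟨x', y', β₁, hxy', hs⟩ := stage hk hg hxy (p' := ⟨p + 1, hp⟩) rfl a₀ β₀ hx hy S
        (Finset.Subset.refl _)
      refine ⟨x', y', fun c => rightVal v b (c, ⟨p, by omega⟩, a₀ c, β₀ c), β₁, hxy',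
        fun c hc => ((hs c hc).1 hc).1, fun c hc => ((hs c hc).1 hc).2, ?_⟩
      have hcommon : ∀ c ∈ S, β₀ c = β₀ c₀ := fun c hc => common_bit hxy hx hy hc hc₀
      have h1 : ∑ c ∈ S, rightVal v b (c, ⟨p, by omega⟩, a₀ c, β₀ c) =
          ∑ c ∈ S, a₀ c + (∑ c ∈ S, v c ⟨p, by omega⟩) * β₀ c₀ +
            (if p = 0 then ∑ c ∈ S, b c else 0) := by
        rw [Finset.sum_mul]
        have h2 : (if p = 0 then ∑ c ∈ S, b c else 0) = ∑ c ∈ S, (if p = 0 then b c else 0) := by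
          split_ifs <;> simp
        rw [h2, ← Finset.sum_add_distrib, ← Finset.sum_add_distrib]
        refine Finset.sum_congr rfl fun c hc => ?_
        simp only [rightVal, hcommon c hc]
      rw [h1, hdep, hsum]
      by_cases hp0 : p = 0 <;> simp [hp0]
  obtain ⟨x, y, a₀, β₀, hxy, hx, hy, hsum⟩ := claim (L - 1) (by omega)
  have hne : L - 1 ≠ 0 := by omega
  rw [if_neg hne] at hsum
  have hend : ∀ c ∈ S, a₀ c = v c ⟨L - 1, by omega⟩ * β₀ c := by
    intro c hc
    have := endpoint hk hxy (p := ⟨L - 1, by omega⟩) (by simp; omega) (hx c hc) (hy c hc)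
    have h2 : ∀ s t : ZMod 2, s + t = 0 → s = t := by decide
    exact h2 _ _ this
  have hcommon : ∀ c ∈ S, β₀ c = β₀ c₀ := fun c hc => common_bit hxy hx hy hc hc₀
  rw [← hsum, Finset.sum_congr rfl hend, Finset.sum_congr rfl
    (fun c hc => by rw [hcommon c hc]), ← Finset.sum_mul, hdep, zero_mul]

end Vale.Agent.Lib.P310
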