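import Vale.Agent.Lib.P310.Equiv
import Vale.Agent.Lib.P310.Spoiler

/-!
# The main equivalence and the reduction from weight-bounded syndrome decoding
-/

namespace Vale.Agent.Lib.P310

open Function

variable {k m d : ℕ}

/-- `k`-WL equivalence of the chain graphs is the absence of odd dependencies of size at most `k`. -/
theorem wlEquiv_iff_noOddDep (hk : 2 ≤ k) (hd : 0 < d) (u : Fin m → Fin d → ZMod 2)
    (b : Fin m → ZMod 2) :
    WLEquiv k (chainGraph (repChain k hd u) 0) (chainGraph (repChain k hd u) b) ↔
      NoOddDep k u b := by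
  refine ⟨fun h S hS hu => ?_, wlEquiv_of_noOddDep hk⟩
  have hL : 2 ≤ 2 * k * d := by
    have : 1 * 1 ≤ k * d := Nat.mul_le_mul (by omega) hd
    rw [Nat.mul_assoc]
    omega
  refine sum_twist_eq_zero hk hL h S hS fun p => ?_
  have := congrFun hu ⟨p.val % d, Nat.mod_lt _ hd⟩
  simpa [Finset.sum_apply, repChain] using this

/-- `k`-WL equivalence of the syndrome graphs fails exactly when the target `s` is the sum of at
most `k - 1` of the vectors `u c`. -/
theorem not_wlEquiv_iff_sum (hk : 2 ≤ k) (hd : 0 < d) (u : Fin m → Fin d → ZMod 2)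
    (s : Fin d → ZMod 2) :
    ¬ WLEquiv k (chainGraph (repChain k hd (sdBase u s)) 0)
        (chainGraph (repChain k hd (sdBase u s)) (sdTwist m)) ↔
      ∃ T : Finset (Fin m), T.card ≤ k - 1 ∧ ∑ c ∈ T, u c = s := by
  classical
  rw [wlEquiv_iff_noOddDep hk hd]
  unfold NoOddDep
  constructor
  · intro h
    push Not at h
    obtain ⟨S, hS, hu, hb⟩ := h
    -- the extra chain must be in `S`
    have h0 : (0 : Fin (m + 1)) ∈ S := by
      by_contra h0
      apply hb
      refine Finset.sum_eq_zero fun c hc => ?_
      obtain ⟨c', rfl⟩ := Fin.exists_succ_eq.mpr (fun h => h0 (h ▸ hc))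
      simp [sdTwist]
    refine ⟨(S.erase 0).preimage Fin.succ (Fin.succ_injective _).injOn, ?_, ?_⟩
    · have h1 : ((S.erase 0).preimage Fin.succ (Fin.succ_injective _).injOn).card ≤ (S.erase 0).card := by
        exact Finset.card_le_card_of_injOn Fin.succ (by
          intro x hx
          exact Finset.mem_preimage.mp hx) (Fin.succ_injective _).injOn
      rw [Finset.card_erase_of_mem h0] at h1
      omega
    · have h1 : ∑ c ∈ (S.erase 0).preimage Fin.succ (Fin.succ_injective _).injOn, u c =
          ∑ c ∈ S.erase 0, sdBase u s c := by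
        have h5 : ∀ c, u c = sdBase u s c.succ := fun c => by simp [sdBase]
        simp_rw [h5]
        rw [Finset.sum_preimage Fin.succ (S.erase 0) (Fin.succ_injective _).injOn
          (fun c => sdBase u s c)]
        · intro x hx hne
          exfalso
          apply hne
          have hx0 : x ≠ 0 := (Finset.mem_erase.mp hx).1
          obtain ⟨c', rfl⟩ := Fin.exists_succ_eq.mpr hx0
          exact ⟨c', rfl⟩
      rw [h1]
      rw [← Finset.add_sum_erase S _ h0] at hu
      have h2 : sdBase u s 0 = s := rfl
      rw [h2] at hu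
      funext r
      have h3 := congrFun hu r
      simp only [Pi.add_apply, Pi.zero_apply] at h3
      have h4 : ∀ a t : ZMod 2, a + t = 0 → t = a := by decide
      exact h4 _ _ h3
  · rintro ⟨T, hT, hTs⟩ h
    have h1 := h (insert 0 (T.map (Fin.succEmb m))) (by
      refine (Finset.card_insert_le _ _).trans ?_
      rw [Finset.card_map]
      omega) (by
      rw [Finset.sum_insert (by simp), Finset.sum_map]
      have h2 : sdBase u s 0 = s := rfl
      rw [h2]
      funext r
      have h3 : ∑ x ∈ T, sdBase u s ((Fin.succEmb m) x) = s := by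
        simpa [sdBase] using hTs
      rw [Pi.add_apply, h3]
      exact zmod2_add_self _)
    rw [Finset.sum_insert (by simp), Finset.sum_map] at h1
    simp [sdTwist] at h1

end Vale.Agent.Lib.P310
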