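import Vale.Agent.Lib.P310.ChainDefs

/-!
# From 3-CNF formulas to sums of at most `g` vectors
-/

namespace Vale.Agent.Lib.P310

/-- A 3-CNF formula with `M` clauses over `N` variables: each clause consists of three literals,
each given by a variable and the value of that variable that makes the literal true. -/
abbrev Cnf3 (N M : ℕ) : Type := Fin M → Fin 3 → Fin N × Bool

/-- Satisfiability of a 3-CNF formula. -/
def CnfSat {N M : ℕ} (φ : Cnf3 N M) : Prop :=
  ∃ σ : Fin N → Bool, ∀ j, ∃ t, σ (φ j t).1 = (φ j t).2

/-- A truth pattern of a clause: a nonzero vector of three bits. -/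
abbrev Pattern : Type := {π : Fin 3 → ZMod 2 // π ≠ 0}

/-- An option of group `i` of `g` groups: a truth assignment of the variables with index `≡ i`
modulo `g` and a truth pattern for each clause with index `≡ i` modulo `g`. -/
abbrev SatOption (g N M : ℕ) (i : Fin g) : Type :=
  ({n : Fin N // n.val % g = i.val} → Bool) × ({j : Fin M // j.val % g = i.val} → Pattern)

/-- All options of all groups. -/
abbrev SatChain (g N M : ℕ) : Type := Σ i : Fin g, SatOption g N M i

/-- The coordinates: one for each group, and one for each literal of each clause. -/
abbrev SatCoord (g M : ℕ) : Type := Fin g ⊕ (Fin M × Fin 3)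

/-- The bit of a literal. -/
def litBit (x s : Bool) : ZMod 2 := if x = s then 1 else 0

/-- The vector of an option: a one at the coordinate of its group and, at the coordinate of a
literal, the truth value of the literal if its variable belongs to the group, plus the entry of
the truth pattern if its clause belongs to the group. -/
def satVec {g N M : ℕ} (φ : Cnf3 N M) (c : SatChain g N M) : SatCoord g M → ZMod 2
  | Sum.inl i' => if i' = c.1 then 1 else 0
  | Sum.inr (j, t) =>
      (if h : (φ j t).1.val % g = c.1.val then litBit (c.2.1 ⟨(φ j t).1, h⟩) (φ j t).2 else 0) +
      (if h : j.val % g = c.1.val then (c.2.2 ⟨j, h⟩).1 t else 0)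

/-- The target vector: one on group coordinates and zero on literal coordinates. -/
def satTarget (g M : ℕ) : SatCoord g M → ZMod 2
  | Sum.inl _ => 1
  | Sum.inr _ => 0

variable {k N M : ℕ}

/-- The number of options of a formula with `N` variables and `M` clauses in `k - 1` groups. -/
def numChains (k N M : ℕ) : ℕ := Fintype.card (SatChain (k - 1) N M)

/-- The number of coordinates. -/
def numCoords (k M : ℕ) : ℕ := Fintype.card (SatCoord (k - 1) M)

/-- A fixed enumeration of the options. -/
noncomputable def chainEnum (k N M : ℕ) : Fin (numChains k N M) ≃ SatChain (k - 1) N M :=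
  (Fintype.equivFin _).symm

/-- A fixed enumeration of the coordinates. -/
noncomputable def coordEnum (k M : ℕ) : Fin (numCoords k M) ≃ SatCoord (k - 1) M :=
  (Fintype.equivFin _).symm

/-- The vectors of the options of a formula, after enumerating options and coordinates. -/
noncomputable def satBase (φ : Cnf3 N M) : Fin (numChains k N M) → Fin (numCoords k M) → ZMod 2 :=
  fun c r => satVec φ (chainEnum k N M c) (coordEnum k M r)

/-- The target vector, after enumerating the coordinates. -/
noncomputable def satTargetFin (k M : ℕ) : Fin (numCoords k M) → ZMod 2 :=
  fun r => satTarget (k - 1) M (coordEnum k M r)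

lemma numCoords_pos (hk : 2 ≤ k) (M : ℕ) : 0 < numCoords k M := by
  simp only [numCoords, Fintype.card_sum, Fintype.card_fin]
  omega

/-- The vertex type of the graphs of a formula. -/
abbrev SatVtx (k N M : ℕ) : Type := Vtx (numChains k N M + 1) (2 * k * numCoords k M)

/-- The two graphs of a 3-CNF formula: the chain system whose base vectors are the vectors of all
options and the target vector, repeated `2 * k` times; in the twisted graph the chain of the target
vector carries a twist. -/
noncomputable def satGraph (hk : 2 ≤ k) (φ : Cnf3 N M) (twisted : Bool) :
    SimpleGraph (SatVtx k N M) :=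
  chainGraph (repChain k (numCoords_pos hk M) (sdBase (satBase φ) (satTargetFin k M)))
    (if twisted then sdTwist _ else 0)

end Vale.Agent.Lib.P310
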