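import Vale.Agent.Lib.P310.SatIff

namespace Vale.Agent.Lib.P310

variable {k N M : ℕ}

lemma exists_fin_iff {C D : Type} [Fintype C] [Fintype D] (vec : C → D → ZMod 2) (tar : D → ZMod 2)
    (n : ℕ) :
    (∃ T : Finset (Fin (Fintype.card C)), T.card ≤ n ∧
      ∑ c ∈ T, (fun r => vec ((Fintype.equivFin C).symm c) ((Fintype.equivFin D).symm r)) =
        fun r => tar ((Fintype.equivFin D).symm r)) ↔
    ∃ T : Finset C, T.card ≤ n ∧ ∑ c ∈ T, vec c = tar := by
  classical
  constructor
  · rintro ⟨T, hT, hs⟩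
    refine ⟨T.map (Fintype.equivFin C).symm.toEmbedding, by simpa using hT, ?_⟩
    rw [Finset.sum_map]
    funext d
    have := congrFun hs (Fintype.equivFin D d)
    simp only [Finset.sum_apply, Equiv.symm_apply_apply] at this
    simp only [Finset.sum_apply]
    exact this
  · rintro ⟨T, hT, hs⟩
    refine ⟨T.map (Fintype.equivFin C).toEmbedding, by simpa using hT, ?_⟩
    rw [Finset.sum_map]
    funext r
    have := congrFun hs ((Fintype.equivFin D).symm r)
    simp only [Finset.sum_apply] at this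
    simp only [Finset.sum_apply, Equiv.coe_toEmbedding, Equiv.symm_apply_apply]
    exact this

/-- A 3-CNF formula is satisfiable iff its two graphs are not `k`-WL equivalent. -/
theorem cnfSat_iff_not_wlEquiv (hk : 2 ≤ k) (φ : Cnf3 N M) :
    CnfSat φ ↔ ¬ WLEquiv k (satGraph hk φ false) (satGraph hk φ true) := by
  have h1 := not_wlEquiv_iff_sum hk (numCoords_pos hk M) (satBase (k := k) φ)
    (satTargetFin k M)
  have h2 : satGraph hk φ false = chainGraph (repChain k (numCoords_pos hk M)
      (sdBase (satBase φ) (satTargetFin k M))) 0 := rfl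
  have h3 : satGraph hk φ true = chainGraph (repChain k (numCoords_pos hk M)
      (sdBase (satBase φ) (satTargetFin k M))) (sdTwist _) := rfl
  rw [h2, h3, h1]
  rw [← exists_sum_iff_cnfSat (by omega : 0 < k - 1) φ]
  exact (exists_fin_iff (C := SatChain (k - 1) N M) (D := SatCoord (k - 1) M) (satVec φ)
    (satTarget _ _) _).symm

lemma card_pattern : Fintype.card Pattern = 7 := by
  decide

lemma card_block_le {g : ℕ} (N : ℕ) (i : Fin g) :
    Fintype.card {n : Fin N // n.val % g = i.val} ≤ N / g + 1 := by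
  classical
  have hinj : Function.Injective
      (fun n : {n : Fin N // n.val % g = i.val} =>
        (⟨n.1.val / g, Nat.lt_succ_of_le (Nat.div_le_div_right n.1.isLt.le)⟩ : Fin (N / g + 1))) := by
    intro n n' h
    have h1 : n.1.val / g = n'.1.val / g := congrArg Fin.val h
    have h2 : n.1.val % g = n'.1.val % g := by rw [n.2, n'.2]
    apply Subtype.ext
    apply Fin.ext
    rw [← Nat.div_add_mod n.1.val g, ← Nat.div_add_mod n'.1.val g, h1, h2]
  simpa using Fintype.card_le_of_injective _ hinj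

lemma card_satOption_le {g : ℕ} (N M : ℕ) (i : Fin g) :
    Fintype.card (SatOption g N M i) ≤ 14 * (2 ^ (N / g) * 7 ^ (M / g)) := by
  have h1 := card_block_le N i
  have h2 := card_block_le M i
  simp only [SatOption, Fintype.card_prod, Fintype.card_fun, Fintype.card_bool, card_pattern]
  calc 2 ^ Fintype.card {n : Fin N // n.val % g = i.val} * 7 ^ Fintype.card {j : Fin M // j.val % g = i.val}
      ≤ 2 ^ (N / g + 1) * 7 ^ (M / g + 1) :=
        Nat.mul_le_mul (Nat.pow_le_pow_right (by norm_num) h1) (Nat.pow_le_pow_right (by norm_num) h2)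
    _ = 14 * (2 ^ (N / g) * 7 ^ (M / g)) := by
        rw [pow_succ, pow_succ]
        ring

lemma card_satChain_le {g : ℕ} (N M : ℕ) :
    Fintype.card (SatChain g N M) ≤ g * (14 * (2 ^ (N / g) * 7 ^ (M / g))) := by
  rw [Fintype.card_sigma]
  have := Finset.sum_le_card_nsmul (Finset.univ : Finset (Fin g))
    (fun i => Fintype.card (SatOption g N M i)) _ (fun i _ => card_satOption_le N M i)
  simpa using this

lemma card_vtx (m L : ℕ) : Fintype.card (Vtx m L) = 4 * (m * L) * (2 * (m * L) * (4 * (m * L) + 1) + 1) := by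
  simp only [Vtx, Elem, Fintype.card_prod, Fintype.card_fin, Fintype.card_option, ZMod.card]
  ring

lemma card_vtx_le (m L : ℕ) : Fintype.card (Vtx m L) ≤ 44 * (m * L) ^ 3 := by
  rw [card_vtx]
  generalize m * L = x
  rcases Nat.eq_zero_or_pos x with rfl | hx
  · simp
  · have h1 : x ≤ x ^ 3 := by
      calc x = x ^ 1 := (pow_one x).symm
        _ ≤ x ^ 3 := Nat.pow_le_pow_right hx (by norm_num)
    have h2 : x ^ 2 ≤ x ^ 3 := Nat.pow_le_pow_right hx (by norm_num)
    have h3 : 4 * x * (2 * x * (4 * x + 1) + 1) = 32 * x ^ 3 + 8 * x ^ 2 + 4 * x := by ring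
    omega

/-- The size bound for the graphs of a formula. -/
theorem card_satVtx_le (hk : 2 ≤ k) (N M : ℕ) :
    Fintype.card (SatVtx k N M) ≤
      10 ^ 6 * k ^ 6 * (k + 3 * M) ^ 3 * 2 ^ (3 * (N / (k - 1))) * 7 ^ (3 * (M / (k - 1))) := by
  have hg : 0 < k - 1 := by omega
  set g := k - 1 with hgdef
  set P := 2 ^ (N / g) * 7 ^ (M / g) with hP
  have hP1 : 1 ≤ P := Nat.mul_pos (by positivity) (by positivity)
  have hm : Fintype.card (SatChain g N M) + 1 ≤ k * (14 * P) := by
    have h1 : Fintype.card (SatChain g N M) ≤ g * (14 * P) := card_satChain_le N M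
    have h2 : k = g + 1 := by omega
    rw [h2, Nat.add_mul, Nat.one_mul]
    omega
  have hd : Fintype.card (SatCoord g M) ≤ k + 3 * M := by
    simp only [Fintype.card_sum, Fintype.card_prod, Fintype.card_fin]
    omega
  have hx : (Fintype.card (SatChain g N M) + 1) * (2 * k * Fintype.card (SatCoord g M)) ≤
      28 * k ^ 2 * (k + 3 * M) * P := by
    calc (Fintype.card (SatChain g N M) + 1) * (2 * k * Fintype.card (SatCoord g M))
        ≤ (k * (14 * P)) * (2 * k * (k + 3 * M)) :=
          Nat.mul_le_mul hm (Nat.mul_le_mul_left _ hd)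
      _ = 28 * k ^ 2 * (k + 3 * M) * P := by ring
  have h3 : P ^ 3 = 2 ^ (3 * (N / g)) * 7 ^ (3 * (M / g)) := by
    rw [hP, mul_pow, ← pow_mul, ← pow_mul, Nat.mul_comm (N / g), Nat.mul_comm (M / g)]
  calc Fintype.card (SatVtx k N M) ≤ 44 * ((Fintype.card (SatChain g N M) + 1) *
        (2 * k * Fintype.card (SatCoord g M))) ^ 3 := card_vtx_le (numChains k N M + 1)
          (2 * k * numCoords k M)
    _ ≤ 44 * (28 * k ^ 2 * (k + 3 * M) * P) ^ 3 :=
        Nat.mul_le_mul_left _ (Nat.pow_le_pow_left hx 3)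
    _ = 965888 * k ^ 6 * (k + 3 * M) ^ 3 * P ^ 3 := by ring
    _ ≤ 10 ^ 6 * k ^ 6 * (k + 3 * M) ^ 3 * P ^ 3 := by
        refine Nat.mul_le_mul_right _ (Nat.mul_le_mul_right _ (Nat.mul_le_mul_right _ ?_))
        norm_num
    _ = 10 ^ 6 * k ^ 6 * (k + 3 * M) ^ 3 * 2 ^ (3 * (N / g)) * 7 ^ (3 * (M / g)) := by
        rw [h3]
        ring

end Vale.Agent.Lib.P310
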