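import Vale.Agent.Lib.P310.SatDefs
import Vale.Agent.Lib.P310.Main

namespace Vale.Agent.Lib.P310

variable {g N M : ℕ}

lemma sum_dite_fin {g : ℕ} (hg : 0 < g) (x : ℕ) (f : (i : Fin g) → x % g = i.val → ZMod 2) :
    ∑ i : Fin g, (if h : x % g = i.val then f i h else 0) = f ⟨x % g, Nat.mod_lt _ hg⟩ rfl := by
  rw [Finset.sum_eq_single (⟨x % g, Nat.mod_lt _ hg⟩ : Fin g)]
  · simp
  · intro i _ hi
    rw [dif_neg]
    intro h
    exact hi (Fin.ext h.symm)
  · simp

lemma litBit_eq_zero_iff (x s : Bool) : litBit x s = 0 ↔ x ≠ s := by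
  unfold litBit
  split_ifs with h <;> simp [h]

/-- A satisfying assignment gives a sum of `g` vectors equal to the target, and conversely. -/
theorem exists_sum_iff_cnfSat (hg : 0 < g) (φ : Cnf3 N M) :
    (∃ T : Finset (SatChain g N M), T.card ≤ g ∧ ∑ c ∈ T, satVec φ c = satTarget g M) ↔
      CnfSat φ := by
  classical
  constructor
  · rintro ⟨T, hT, hsum⟩
    -- one element of `T` per group
    have hgroup : ∀ i : Fin g, ∃ o : SatOption g N M i, (⟨i, o⟩ : SatChain g N M) ∈ T := by
      intro i
      by_contra hno
      push Not at hno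
      have h1 := congrFun hsum (Sum.inl i)
      rw [Finset.sum_apply] at h1
      have h2 : ∑ c ∈ T, satVec φ c (Sum.inl i) = 0 := by
        refine Finset.sum_eq_zero fun c hc => ?_
        obtain ⟨i', o⟩ := c
        simp only [satVec]
        rw [if_neg]
        rintro rfl
        exact hno o hc
      rw [h2] at h1
      exact zero_ne_one h1
    choose o ho using hgroup
    let emb : Fin g → SatChain g N M := fun i => ⟨i, o i⟩
    have hemb : Function.Injective emb := by
      intro i i' h
      exact congrArg Sigma.fst h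
    have hT' : T = Finset.univ.image emb := by
      symm
      apply Finset.eq_of_subset_of_card_le
      · intro c hc
        obtain ⟨i, -, rfl⟩ := Finset.mem_image.mp hc
        exact ho i
      · rw [Finset.card_image_of_injective _ hemb]
        simpa using hT
    subst hT'
    rw [Finset.sum_image (fun a _ b _ h => hemb h)] at hsum
    let σ : Fin N → Bool := fun n => (o ⟨n.val % g, Nat.mod_lt _ hg⟩).1 ⟨n, rfl⟩
    refine ⟨σ, fun j => ?_⟩
    let π := (o ⟨j.val % g, Nat.mod_lt _ hg⟩).2 ⟨j, rfl⟩
    have hpat : ∀ t, π.1 t = litBit (σ (φ j t).1) (φ j t).2 := by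
      intro t
      have h1 := congrFun hsum (Sum.inr (j, t))
      rw [Finset.sum_apply] at h1
      simp only [satVec, satTarget, emb] at h1
      rw [Finset.sum_add_distrib, sum_dite_fin hg, sum_dite_fin hg] at h1
      have h2 : ∀ a b : ZMod 2, a + b = 0 → b = a := by decide
      exact h2 _ _ h1
    obtain ⟨t, ht⟩ : ∃ t, π.1 t ≠ 0 := by
      by_contra hall
      push Not at hall
      exact π.2 (funext hall)
    refine ⟨t, ?_⟩
    rw [hpat t] at ht
    by_contra hne
    exact ht ((litBit_eq_zero_iff _ _).mpr hne)
  · rintro ⟨σ, hσ⟩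
    let pat : Fin M → Pattern := fun j => ⟨fun t => litBit (σ (φ j t).1) (φ j t).2, by
      intro h0
      obtain ⟨t, ht⟩ := hσ j
      have := (litBit_eq_zero_iff (σ (φ j t).1) (φ j t).2).mp (congrFun h0 t)
      exact this ht⟩
    let emb : Fin g → SatChain g N M := fun i => ⟨i, (fun n => σ n.1, fun j => pat j.1)⟩
    have hemb : Function.Injective emb := by
      intro i i' h
      exact congrArg Sigma.fst h
    refine ⟨Finset.univ.image emb, ?_, ?_⟩
    · refine Finset.card_image_le.trans ?_
      simp
    · rw [Finset.sum_image (fun a _ b _ h => hemb h)]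
      funext l
      rw [Finset.sum_apply]
      rcases l with i' | ⟨j, t⟩
      · simp [satVec, satTarget, emb]
      · simp only [satVec, satTarget, emb]
        rw [Finset.sum_add_distrib, sum_dite_fin hg, sum_dite_fin hg]
        exact zmod2_add_self _

end Vale.Agent.Lib.P310
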