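import Mathlib

/-!
# Joint-update `k`-dimensional Weisfeiler-Leman refinement

Colors are the data themselves, so color names are common to all graphs.
-/

namespace Vale.Agent.Lib.P310

/-- The type of round `r` colors of `k`-tuples: round `0` is an atomic type, given by a table that
says for each pair of indices whether the entries are equal and whether they are adjacent; round
`r + 1` is the pair of the old color and a multiset of `k`-tuples of old colors. -/
def Color (k : ℕ) : ℕ → Type
  | 0 => Fin k → Fin k → Bool × Bool
  | r + 1 => Color k r × Multiset (Fin k → Color k r)

open Classical in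
/-- The atomic type of a tuple. -/
noncomputable def atomicType {V : Type} {k : ℕ} (G : SimpleGraph V) (x : Fin k → V) : Color k 0 :=
  fun i j => (decide (x i = x j), decide (G.Adj (x i) (x j)))

/-- The color `C_r(x)` of a `k`-tuple `x` in joint-update `k`-dimensional refinement. -/
noncomputable def wlColor {V : Type} [Fintype V] {k : ℕ} (G : SimpleGraph V) :
    (r : ℕ) → (Fin k → V) → Color k r
  | 0, x => atomicType G x
  | r + 1, x =>
      (wlColor G r x,
        (Finset.univ : Finset V).val.map
          (fun y => fun i => wlColor G r (Function.update x i y)))

/-- `k`-WL equivalence: in every round the multisets of colors of all `k`-tuples coincide. -/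
def WLEquiv (k : ℕ) {V W : Type} [Fintype V] [Fintype W] (G : SimpleGraph V) (H : SimpleGraph W) :
    Prop :=
  ∀ r : ℕ,
    (Finset.univ : Finset (Fin k → V)).val.map (wlColor G r) =
      (Finset.univ : Finset (Fin k → W)).val.map (wlColor H r)

end Vale.Agent.Lib.P310
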